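import Crest.Agent.R166.Iface

/-!
# Row 166, block C: the fixed point `m0` and the Koenigs coordinate (helper9)
-/

set_option autoImplicit false

open Complex

noncomputable section

namespace Crest.Agent.R166

/-- the facts about `m = m0 q z` -/
structure CGd (q : ℕ) (a : ℝ) (z m : ℂ) : Prop where
  hq : 2 ≤ q
  a_pos : 0 < a
  a_le : a ≤ 1
  im_pos : 0 < m.im
  eq : q * m ^ 2 + z * m + 1 = 0
  zim : 0 ≤ z.im
  zre : |z.re| ≤ 2 * q
  sq : q * ‖m‖ ^ 2 ≤ 1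
  re : |m.re| ≤ (1 - a) * ‖m‖
  im : a * ‖m‖ ≤ m.im

theorem c_exists_root {q : ℕ} {κ : ℝ} {z : ℂ} (hq : 2 ≤ q) (hκ : 0 < κ) (hb : Bulk q κ z.re) :
    ∃ m : ℂ, 0 < m.im ∧ q * m ^ 2 + z * m + 1 = 0 := by
  have hq0 : (q : ℂ) ≠ 0 := by exact_mod_cast (by omega : q ≠ 0)
  have hqr : (0 : ℝ) < q := by exact_mod_cast (by omega : 0 < q)
  obtain ⟨w, hw⟩ := IsAlgClosed.exists_pow_nat_eq (z ^ 2 - 4 * q) (n := 2) (by norm_num)
  obtain ⟨m, hm⟩ : ∃ m : ℂ, q * m ^ 2 + z * m + 1 = 0 := by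
    refine ⟨(-z + w) / (2 * q), ?_⟩
    field_simp
    linear_combination hw
  have hm0 : m ≠ 0 := by rintro rfl; simp at hm
  rcases lt_trichotomy m.im 0 with h | h | h
  · refine ⟨(q * m)⁻¹, ?_, ?_⟩
    · rw [Complex.inv_im]
      have h1 : ((q : ℂ) * m).im < 0 := by
        simp only [mul_im, natCast_re, natCast_im, zero_mul, add_zero]
        exact mul_neg_of_pos_of_neg hqr h
      have h2 : 0 < normSq ((q : ℂ) * m) := normSq_pos.2 (mul_ne_zero hq0 hm0)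
      exact div_pos (by linarith) h2
    · field_simp
      linear_combination hm
  · exfalso
    have h1 := congrArg Complex.re hm
    simp only [add_re, mul_re, natCast_re, natCast_im, sq, mul_im, h, one_re, zero_re] at h1
    have h2 : |z.re| * |m.re| = q * m.re ^ 2 + 1 := by
      rw [← abs_mul, show z.re * m.re = -(q * m.re ^ 2 + 1) by linarith, abs_neg,
        abs_of_pos (by positivity)]
    have h3 : |z.re| * |m.re| ≤ 2 * √(q : ℝ) * |m.re| - κ * |m.re| := by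
      have := mul_le_mul_of_nonneg_right hb (abs_nonneg m.re)
      linarith
    have h4 : 0 < |m.re| := abs_pos.2 fun h' => hm0 (Complex.ext h' h)
    have h5 := Real.sq_sqrt hqr.le
    have h6 := sq_abs m.re
    have h7 := sq_nonneg (√(q : ℝ) * |m.re| - 1)
    have h8 := mul_pos hκ h4
    nlinarith
  · exact ⟨m, h, hm⟩

theorem c_gd {q : ℕ} {κ : ℝ} {z : ℂ} (hq : 2 ≤ q) (hκ : 0 < κ) (hz : 0 ≤ z.im)
    (hb : Bulk q κ z.re) : CGd q (κ / (2 * √(q : ℝ))) z (m0 q z) := by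
  obtain ⟨h1, h2⟩ : 0 < (m0 q z).im ∧ q * m0 q z ^ 2 + z * m0 q z + 1 = 0 :=
    Classical.epsilon_spec (c_exists_root hq hκ hb)
  generalize m0 q z = m at h1 h2
  have hqr : (2 : ℝ) ≤ q := by exact_mod_cast hq
  have hs : 0 < √(q : ℝ) := Real.sqrt_pos.2 (by linarith)
  have hs2 := Real.sq_sqrt (show (0 : ℝ) ≤ q by linarith)
  have hs3 : √(q : ℝ) ≤ q := by nlinarith
  have hm0 : m ≠ 0 := by rintro rfl; simp at h2
  have hr : 0 < ‖m‖ := norm_pos_iff.2 hm0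
  have hn : ‖m‖ ^ 2 = m.re ^ 2 + m.im ^ 2 := by rw [Complex.sq_norm, normSq_apply]; ring
  have e1 := congrArg Complex.re h2
  have e2 := congrArg Complex.im h2
  simp only [add_re, mul_re, natCast_re, natCast_im, sq, mul_im, one_re, zero_re, add_im, one_im,
    zero_im] at e1 e2
  -- `z.im |m|² = m.im (1 - q|m|²)`, `z.re |m|² = -m.re (1 + q |m|²)`
  have f1 : z.im * ‖m‖ ^ 2 = m.im * (1 - q * ‖m‖ ^ 2) := by
    rw [hn]; linear_combination m.re * e2 - m.im * e1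
  have f2 : z.re * ‖m‖ ^ 2 = -(m.re * (1 + q * ‖m‖ ^ 2)) := by
    rw [hn]; linear_combination m.re * e1 + m.im * e2
  have g1 : q * ‖m‖ ^ 2 ≤ 1 := by
    by_contra hc
    push Not at hc
    have : m.im * (1 - q * ‖m‖ ^ 2) < 0 := mul_neg_of_pos_of_neg h1 (by linarith)
    have : 0 ≤ z.im * ‖m‖ ^ 2 := by positivity
    linarith
  have hb' : |z.re| ≤ 2 * √(q : ℝ) - κ := hb
  have hκ' : κ ≤ 2 * √(q : ℝ) := by linarith [abs_nonneg z.re]
  have ha0 : 0 < κ / (2 * √(q : ℝ)) := by positivity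
  have ha1 : κ / (2 * √(q : ℝ)) ≤ 1 := by rw [div_le_one (by positivity)]; exact hκ'
  have g2 : |m.re| ≤ (1 - κ / (2 * √(q : ℝ))) * ‖m‖ := by
    have k1 : |z.re| * ‖m‖ ^ 2 = |m.re| * (1 + q * ‖m‖ ^ 2) := by
      have := congrArg abs f2
      rwa [abs_mul, abs_neg, abs_mul, abs_of_nonneg (sq_nonneg ‖m‖),
        abs_of_nonneg (show 0 ≤ 1 + q * ‖m‖ ^ 2 by positivity)] at this
    have k2 : 2 * √(q : ℝ) * ‖m‖ ≤ 1 + q * ‖m‖ ^ 2 := by
      nlinarith [sq_nonneg (√(q : ℝ) * ‖m‖ - 1)]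
    have k3 : |m.re| * (2 * √(q : ℝ) * ‖m‖) ≤ (2 * √(q : ℝ) - κ) * ‖m‖ ^ 2 := by
      have := mul_le_mul_of_nonneg_left k2 (abs_nonneg m.re)
      have := mul_le_mul_of_nonneg_right hb' (sq_nonneg ‖m‖)
      linarith
    have e : (1 - κ / (2 * √(q : ℝ))) * ‖m‖ = (2 * √(q : ℝ) - κ) * ‖m‖ ^ 2 / (2 * √(q : ℝ) * ‖m‖) := by
      field_simp
    rw [e, le_div_iff₀ (by positivity)]; exact k3
  refine ⟨hq, ha0, ha1, h1, h2, hz, by linarith, g1, g2, ?_⟩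
  generalize κ / (2 * √(q : ℝ)) = a at ha0 ha1 g2
  refine (abs_le_of_sq_le_sq' ?_ h1.le).2
  have k1 : m.re ^ 2 ≤ ((1 - a) * ‖m‖) ^ 2 := by
    rw [← sq_abs m.re]; exact pow_le_pow_left₀ (abs_nonneg _) g2 2
  have k2 : 0 ≤ a * (1 - a) * ‖m‖ ^ 2 := by have : 0 ≤ 1 - a := by linarith
                                            positivity
  nlinarith

namespace CGd
variable {q : ℕ} {a : ℝ} {z m z' m' : ℂ}

theorem ne (h : CGd q a z m) : m ≠ 0 := by rintro rfl; simpa using h.im_pos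
theorem npos (h : CGd q a z m) : 0 < ‖m‖ := norm_pos_iff.2 h.ne
theorem hq' (h : CGd q a z m) : (2 : ℝ) ≤ q := by exact_mod_cast h.hq
theorem sq_half (h : CGd q a z m) : ‖m‖ ^ 2 ≤ 1 / 2 := by
  nlinarith [h.sq, h.hq', sq_nonneg ‖m‖]
theorem le_one (h : CGd q a z m) : ‖m‖ ≤ 1 := by nlinarith [h.sq_half, h.npos]
theorem one_le (h : CGd q a z m) : 1 ≤ ‖m‖⁻¹ := (one_le_inv₀ h.npos).2 h.le_one
theorem z_eq (h : CGd q a z m) : z = -(q * m + m⁻¹) := by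
  have := h.ne
  field_simp
  linear_combination h.eq
theorem inv_im (_h : CGd q a z m) : -(m⁻¹).im = m.im * (‖m‖⁻¹) ^ 2 := by
  rw [Complex.inv_im, Complex.normSq_eq_norm_sq]; field_simp
theorem inv_im_ge (h : CGd q a z m) : a * ‖m‖⁻¹ ≤ -(m⁻¹).im := by
  rw [h.inv_im]
  have h1 := mul_le_mul_of_nonneg_right h.im (sq_nonneg ‖m‖⁻¹)
  refine le_trans (le_of_eq ?_) h1
  have := h.npos.ne'
  field_simp
theorem zim_eq (h : CGd q a z m) : -(m⁻¹).im = z.im + q * m.im := by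
  have := congrArg Complex.im h.z_eq
  simp only [neg_im, add_im, mul_im, natCast_re, natCast_im, zero_mul, add_zero] at this
  linarith
theorem zim_le (h : CGd q a z m) : z.im ≤ ‖m‖⁻¹ := by
  have h1 := h.zim_eq
  have h2 : -(m⁻¹).im ≤ ‖m⁻¹‖ := (neg_le_abs _).trans (Complex.abs_im_le_norm _)
  rw [norm_inv] at h2
  have := mul_pos (show (0 : ℝ) < q by linarith [h.hq']) h.im_pos
  linarith
theorem inv_le (h : CGd q a z m) {M : ℝ} (hM : z.im ≤ M) : ‖m‖⁻¹ ≤ M + 3 * q := by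
  have e : m⁻¹ = -(z + q * m) := by rw [h.z_eq]; ring
  rw [← norm_inv, e, norm_neg]
  have h1 := norm_add_le z (q * m)
  have h2 := Complex.norm_le_abs_re_add_abs_im z
  rw [abs_of_nonneg h.zim] at h2
  rw [norm_mul, Complex.norm_natCast] at h1
  have h3 := mul_le_mul_of_nonneg_left h.le_one (show (0 : ℝ) ≤ q by positivity)
  linarith [h.zre]
theorem den (h : CGd q a z m) (Y : ℂ) : Y.im + a * ‖m‖⁻¹ ≤ ‖Y - m⁻¹‖ := by
  have h1 := (le_abs_self _).trans (Complex.abs_im_le_norm (Y - m⁻¹))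
  rw [sub_im] at h1
  linarith [h.inv_im_ge]
theorem a_le_mul (h : CGd q a z m) : a ≤ a * ‖m‖⁻¹ := by nlinarith [h.one_le, h.a_pos]
theorem den_pos (h : CGd q a z m) {Y : ℂ} (hY : 0 ≤ Y.im) : 0 < ‖Y - m⁻¹‖ := by
  linarith [h.den Y, h.a_le_mul, h.a_pos]
theorem den_ne (h : CGd q a z m) {Y : ℂ} (hY : 0 ≤ Y.im) : Y - m⁻¹ ≠ 0 :=
  norm_pos_iff.1 (h.den_pos hY)
theorem c_le (h : CGd q a z m) : ‖m⁻¹ - m‖ ≤ 2 * ‖m‖⁻¹ := by
  have h1 := norm_sub_le m⁻¹ m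
  rw [norm_inv] at h1
  linarith [h.le_one, h.one_le]
theorem c_ge (h : CGd q a z m) : 1 / 2 ≤ ‖m⁻¹ - m‖ := by
  have h1 := norm_sub_norm_le m⁻¹ m
  rw [norm_inv] at h1
  have h2 : ‖m‖ = ‖m‖ ^ 2 * ‖m‖⁻¹ := by have := h.npos.ne'; field_simp
  have h3 := mul_le_mul_of_nonneg_right h.sq_half (show 0 ≤ ‖m‖⁻¹ by positivity)
  linarith [h.one_le]
theorem one_sub (h : CGd q a z m) (h' : CGd q a z' m') : a ≤ ‖1 - q * (m * m')‖ := by
  refine le_trans ?_ ((le_abs_self _).trans (Complex.abs_re_le_norm _))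
  simp only [sub_re, one_re, mul_re, natCast_re, natCast_im, zero_mul, sub_zero]
  have h1 : m.re * m'.re ≤ ((1 - a) * ‖m‖) * ((1 - a) * ‖m'‖) := by
    refine (le_abs_self _).trans ?_
    rw [abs_mul]
    exact mul_le_mul h.re h'.re (abs_nonneg _) ((abs_nonneg _).trans h.re)
  have h2 := mul_pos h.im_pos h'.im_pos
  have h3 : q * (‖m‖ * ‖m'‖) ≤ 1 := by
    have := h.sq; have := h'.sq
    have := mul_nonneg (show (0 : ℝ) ≤ q by positivity) (sq_nonneg (‖m‖ - ‖m'‖))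
    nlinarith
  have h4 : (1 - a) ^ 2 ≤ 1 - a := by nlinarith [h.a_pos, h.a_le]
  have h5 : (0 : ℝ) ≤ q := by positivity
  have h6 : q * (m.re * m'.re - m.im * m'.im) ≤ (1 - a) ^ 2 * (q * (‖m‖ * ‖m'‖)) := by
    have := mul_le_mul_of_nonneg_left (show m.re * m'.re - m.im * m'.im ≤
      ((1 - a) * ‖m‖) * ((1 - a) * ‖m'‖) by linarith) h5
    linarith
  have h7 := mul_le_mul_of_nonneg_left h3 (sq_nonneg (1 - a))
  linarith
theorem inv_lip (h : CGd q a z m) (h' : CGd q a z' m') : a * ‖m⁻¹ - m'⁻¹‖ ≤ ‖z - z'‖ := by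
  have e : z - z' = -((m⁻¹ - m'⁻¹) * (1 - q * (m * m'))) := by
    rw [h.z_eq, h'.z_eq]; have := h.ne; have := h'.ne; field_simp; ring
  rw [e, norm_neg, norm_mul, mul_comm]
  exact mul_le_mul_of_nonneg_left (h.one_sub h') (norm_nonneg _)
theorem lip (h : CGd q a z m) (h' : CGd q a z' m') : a * ‖m - m'‖ ≤ ‖z - z'‖ := by
  refine le_trans (mul_le_mul_of_nonneg_left ?_ h.a_pos.le) (h.inv_lip h')
  have e : m - m' = -((m⁻¹ - m'⁻¹) * (m * m')) := by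
    have := h.ne; have := h'.ne; field_simp; ring
  rw [e, norm_neg, norm_mul, norm_mul]
  have : ‖m‖ * ‖m'‖ ≤ 1 := mul_le_one₀ h.le_one (norm_nonneg _) h'.le_one
  nlinarith [norm_nonneg (m⁻¹ - m'⁻¹)]

end CGd

/-- the Koenigs coordinate attached to `m` -/
def cU (m Y : ℂ) : ℂ := (Y - m) / (Y - m⁻¹)

theorem c_uu (q : ℕ) (z Y : ℂ) : uu q z Y = cU (m0 q z) Y := rfl

namespace CGd
variable {q : ℕ} {a : ℝ} {z m z' m' : ℂ}

theorem U_eq (h : CGd q a z m) {Y : ℂ} (hY : 0 ≤ Y.im) : cU m Y = 1 + (m⁻¹ - m) / (Y - m⁻¹) := by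
  have := h.den_ne hY
  unfold cU
  generalize m⁻¹ = n at *
  field_simp; ring

theorem ratio (h : CGd q a z m) {Y : ℂ} (hY : 0 ≤ Y.im) : ‖(m⁻¹ - m) / (Y - m⁻¹)‖ ≤ 2 / a := by
  rw [norm_div, div_le_div_iff₀ (h.den_pos hY) h.a_pos]
  have h1 := mul_le_mul_of_nonneg_right h.c_le h.a_pos.le
  linarith [h.den Y]

theorem U_le (h : CGd q a z m) {Y : ℂ} (hY : 0 ≤ Y.im) : ‖cU m Y‖ ≤ 3 / a := by
  rw [h.U_eq hY]
  have h1 := norm_add_le 1 ((m⁻¹ - m) / (Y - m⁻¹))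
  rw [norm_one] at h1
  have h2 : 1 ≤ 1 / a := by rw [le_div_iff₀ h.a_pos]; linarith [h.a_le]
  have h3 : 3 / a = 1 / a + 2 / a := by ring
  linarith [h.ratio hY]

theorem U_sub (h : CGd q a z m) {Y Y' : ℂ} (hY : 0 ≤ Y.im) (hY' : 0 ≤ Y'.im) :
    cU m Y - cU m Y' = (m⁻¹ - m) * (Y' - Y) / ((Y - m⁻¹) * (Y' - m⁻¹)) := by
  rw [h.U_eq hY, h.U_eq hY']
  have := h.den_ne hY; have := h.den_ne hY'
  generalize m⁻¹ = n at *
  field_simp; ring

theorem U_gam (h : CGd q a z m) {Y Y' : ℂ} (hY : 0 < Y.im) (hY' : 0 < Y'.im) :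
    ‖cU m Y - cU m Y'‖ ^ 2 ≤ 1 / a ^ 2 * gam Y Y' := by
  rw [h.U_sub hY.le hY'.le, norm_div, norm_mul, norm_mul, div_pow, norm_sub_rev Y' Y]
  unfold gam
  have ha := h.a_pos
  have hρ : 0 < ‖m‖⁻¹ := by linarith [h.one_le]
  have k : ∀ {W : ℂ}, 0 < W.im → 4 * W.im * (a * ‖m‖⁻¹) ≤ ‖W - m⁻¹‖ ^ 2 := by
    intro W hW
    have h1 := pow_le_pow_left₀ (by positivity) (h.den W) 2
    nlinarith [sq_nonneg (W.im - a * ‖m‖⁻¹)]
  have h1 := mul_le_mul (k hY) (k hY') (by positivity) (by positivity)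
  have h2 := pow_le_pow_left₀ (norm_nonneg _) h.c_le 2
  have hd := h.den_pos hY.le; have hd' := h.den_pos hY'.le
  rw [div_mul_div_comm, div_le_div_iff₀ (by positivity) (by positivity), mul_pow, mul_pow]
  have h3 : ‖m⁻¹ - m‖ ^ 2 * (a ^ 2 * (Y.im * Y'.im)) ≤ ‖Y - m⁻¹‖ ^ 2 * ‖Y' - m⁻¹‖ ^ 2 := by
    have := mul_le_mul_of_nonneg_right h2 (show 0 ≤ a ^ 2 * (Y.im * Y'.im) by positivity)
    have : 0 ≤ ‖m‖⁻¹ ^ 2 * (a ^ 2 * (Y.im * Y'.im)) := by positivity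
    nlinarith
  have h4 := mul_le_mul_of_nonneg_left h3 (sq_nonneg ‖Y - Y'‖)
  nlinarith

theorem U_far (h : CGd q a z m) {Y : ℂ} (hY : 0 < Y.im) (hz : 0 < z.im) (hb : ‖Y‖ ≤ z.im⁻¹) :
    ‖cU m Y‖ ≤ 2 / z.im ^ 2 := by
  have h1 : ‖m‖ ≤ z.im⁻¹ := by
    rw [le_inv_comm₀ h.npos hz]; exact h.zim_le
  have h2 : z.im ≤ ‖Y - m⁻¹‖ := by
    have k1 := (le_abs_self _).trans (Complex.abs_im_le_norm (Y - m⁻¹))
    rw [sub_im] at k1
    have := mul_pos (show (0 : ℝ) < q by linarith [h.hq']) h.im_pos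
    linarith [h.zim_eq]
  unfold cU
  rw [norm_div]
  calc ‖Y - m‖ / ‖Y - m⁻¹‖ ≤ (2 * z.im⁻¹) / z.im :=
        div_le_div₀ (by positivity) (by linarith [norm_sub_le Y m]) hz h2
    _ = 2 / z.im ^ 2 := by field_simp

theorem U_lip (h : CGd q a z m) (h' : CGd q a z' m') {Y : ℂ} (hY : 0 ≤ Y.im) :
    ‖cU m Y - cU m' Y‖ ≤ 4 / a ^ 3 * ‖z - z'‖ := by
  have ha := h.a_pos
  have e : cU m Y - cU m' Y = ((m⁻¹ - m'⁻¹) - (m - m')) / (Y - m⁻¹) +
      (m'⁻¹ - m') / (Y - m'⁻¹) * (m⁻¹ - m'⁻¹) / (Y - m⁻¹) := by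
    rw [h.U_eq hY, h'.U_eq hY]
    have := h.den_ne hY; have := h'.den_ne hY
    generalize m⁻¹ = n at *
    generalize m'⁻¹ = n' at *
    field_simp; ring
  have h1 : ‖m⁻¹ - m'⁻¹‖ ≤ ‖z - z'‖ / a := by rw [le_div_iff₀ ha]; linarith [h.inv_lip h']
  have h2 : ‖m - m'‖ ≤ ‖z - z'‖ / a := by rw [le_div_iff₀ ha]; linarith [h.lip h']
  have h3 : a ≤ ‖Y - m⁻¹‖ := by linarith [h.den Y, h.a_le_mul]
  have h4 : ‖((m⁻¹ - m'⁻¹) - (m - m')) / (Y - m⁻¹)‖ ≤ (2 * (‖z - z'‖ / a)) / a := by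
    rw [norm_div]
    exact div_le_div₀ (by positivity) (by linarith [norm_sub_le (m⁻¹ - m'⁻¹) (m - m')]) ha h3
  have h5 : ‖(m'⁻¹ - m') / (Y - m'⁻¹) * (m⁻¹ - m'⁻¹) / (Y - m⁻¹)‖ ≤ (2 / a * (‖z - z'‖ / a)) / a := by
    rw [norm_div, norm_mul]
    exact div_le_div₀ (by positivity) (mul_le_mul (h'.ratio hY) h1 (norm_nonneg _) (by positivity))
      ha h3
  have h6 : (2 * (‖z - z'‖ / a)) / a ≤ (2 / a * (‖z - z'‖ / a)) / a := by
    refine div_le_div_of_nonneg_right (mul_le_mul_of_nonneg_right ?_ (by positivity)) ha.le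
    rw [le_div_iff₀ ha]; linarith [h.a_le]
  have h7 : 4 / a ^ 3 * ‖z - z'‖ = 2 * ((2 / a * (‖z - z'‖ / a)) / a) := by field_simp; ring
  rw [e, h7]
  linarith [norm_add_le (((m⁻¹ - m'⁻¹) - (m - m')) / (Y - m⁻¹))
    ((m'⁻¹ - m') / (Y - m'⁻¹) * (m⁻¹ - m'⁻¹) / (Y - m⁻¹))]

/-- small Koenigs coordinate: close to `m` -/
theorem near (h : CGd q a z m) {Y : ℂ} (hY : 0 ≤ Y.im) (hu : ‖cU m Y‖ ≤ 1 / 2) :
    ‖Y - m‖ ≤ 4 * ‖m‖⁻¹ * ‖cU m Y‖ := by
  have e : Y - m = cU m Y * (Y - m) - cU m Y * (m⁻¹ - m) := by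
    have := h.den_ne hY
    unfold cU
    generalize m⁻¹ = n at *
    field_simp; ring
  have h1 := norm_sub_le (cU m Y * (Y - m)) (cU m Y * (m⁻¹ - m))
  rw [← e, norm_mul, norm_mul] at h1
  have h2 := mul_le_mul_of_nonneg_right hu (norm_nonneg (Y - m))
  have h3 := mul_le_mul_of_nonneg_left h.c_le (norm_nonneg (cU m Y))
  linarith

end CGd

theorem c_norm_le_hyp {Y : ℂ} (hY : 0 < Y.im) : ‖Y‖ ≤ hyp Y := by
  unfold hyp
  rw [le_div_iff₀ hY]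
  have h1 : Y.im ≤ ‖Y‖ := (le_abs_self _).trans (Complex.abs_im_le_norm Y)
  nlinarith [norm_nonneg Y]

theorem stC0 : StC0 := by
  intro q κ hq hκ
  have hqr : (2 : ℝ) ≤ q := by exact_mod_cast hq
  have hs : 0 < √(q : ℝ) := Real.sqrt_pos.2 (by linarith)
  obtain ⟨a, ha⟩ : ∃ a, a = κ / (2 * √(q : ℝ)) := ⟨_, rfl⟩
  have ha0 : 0 < a := by rw [ha]; positivity
  have gd : ∀ z : ℂ, 0 ≤ z.im → Bulk q κ z.re → CGd q a z (m0 q z) := fun z h1 h2 =>
    ha ▸ c_gd hq hκ h1 h2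
  have pw : ∀ (n : ℕ) (c : ℝ), a ≤ 1 → n ≤ 3 → 0 ≤ c → c ≤ 4 → c / a ^ n ≤ 1 + 4 / a ^ 3 := by
    intro n c h1 hn hc hc'
    have : c / a ^ n ≤ 4 / a ^ 3 :=
      div_le_div₀ (by norm_num) hc' (by positivity) (pow_le_pow_of_le_one ha0.le h1 hn)
    linarith
  refine ⟨1 + 4 / a ^ 3, le_add_of_nonneg_right (by positivity), fun z hz hb => ?_, fun M => ⟨?_, ?_⟩⟩
  · have h := gd z hz hb
    refine ⟨h.im_pos, h.eq, fun Y hY => ?_, fun Y Y' hY hY' => ?_,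
      fun Y hY hz' hb' => h.U_far hY hz' hb', fun z' hz' hb' => ⟨?_, fun Y hY => ?_⟩⟩
    · refine (h.U_le hY.le).trans ?_
      simpa using pw 1 3 h.a_le (by norm_num) (by norm_num) (by norm_num)
    · refine (h.U_gam hY hY').trans (mul_le_mul_of_nonneg_right
        (pw 2 1 h.a_le (by norm_num) (by norm_num) (by norm_num)) ?_)
      unfold gam; positivity
    · have h1 := h.lip (gd z' hz' hb')
      have h2 : ‖m0 q z - m0 q z'‖ ≤ 1 / a ^ 1 * ‖z - z'‖ := by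
        rw [pow_one, one_div, ← div_eq_inv_mul, le_div_iff₀ ha0]; linarith
      exact h2.trans (mul_le_mul_of_nonneg_right
        (pw 1 1 h.a_le (by norm_num) (by norm_num) (by norm_num)) (norm_nonneg _))
    · exact (h.U_lip (gd z' hz' hb') hY.le).trans (mul_le_mul_of_nonneg_right
        (pw 3 4 h.a_le (by norm_num) (by norm_num) (by norm_num)) (norm_nonneg _))
  · obtain ⟨B, hB⟩ : ∃ B, B = |M| + 3 * q := ⟨_, rfl⟩
    have hB1 : 1 ≤ B := by rw [hB]; linarith [abs_nonneg M]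
    refine ⟨a / (8 * B ^ 2), 10 * B / a, by positivity, fun z hz hM hb Y hY hu => ?_⟩
    have h := gd z hz hb
    rw [c_uu] at hu
    generalize m0 q z = m at h hu
    have h1 : ‖m‖⁻¹ ≤ B := by rw [hB]; linarith [h.inv_le hM, le_abs_self M]
    have h2 : a / (8 * B ^ 2) ≤ 1 / 2 := by
      rw [div_le_div_iff₀ (by positivity) (by norm_num)]; nlinarith [h.a_le]
    have h3 : ‖Y - m‖ ≤ a / (2 * B) := by
      refine (h.near hY.le (hu.trans h2)).trans ?_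
      calc 4 * ‖m‖⁻¹ * ‖cU m Y‖ ≤ 4 * B * (a / (8 * B ^ 2)) :=
            mul_le_mul (by linarith) hu (norm_nonneg _) (by positivity)
        _ = a / (2 * B) := by field_simp; ring
    have h4 : a / B ≤ m.im := by
      refine le_trans ?_ h.im
      rw [div_eq_mul_inv]
      refine mul_le_mul_of_nonneg_left ?_ ha0.le
      rw [inv_le_comm₀ (by linarith) h.npos]; exact h1
    have h5 : a / (2 * B) ≤ Y.im := by
      have k1 := (neg_le_abs _).trans (Complex.abs_im_le_norm (Y - m))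
      rw [sub_im] at k1
      have : a / B = 2 * (a / (2 * B)) := by field_simp
      linarith
    have h6 : ‖Y‖ ≤ 2 := by
      have k1 := norm_add_le (Y - m) m
      rw [sub_add_cancel] at k1
      have : a / (2 * B) ≤ 1 := by rw [div_le_one (by positivity)]; linarith [h.a_le]
      linarith [h.le_one]
    unfold hyp
    calc (1 + ‖Y‖ ^ 2) / Y.im ≤ 5 / (a / (2 * B)) :=
          div_le_div₀ (by norm_num) (by nlinarith [norm_nonneg Y]) (by positivity) h5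
      _ = 10 * B / a := by field_simp; ring
  · intro T ε hε
    obtain ⟨B, hB⟩ : ∃ B, B = |T| + |M| + 3 * q := ⟨_, rfl⟩
    have hB1 : 1 ≤ B := by rw [hB]; linarith [abs_nonneg M, abs_nonneg T]
    refine ⟨min (1 / (4 * B)) (ε / (4 * B ^ 2)), by positivity, fun z hz hM hb Y Y' hY hY' hT hu => ?_⟩
    have h := gd z hz hb
    rw [c_uu, c_uu] at hu
    generalize m0 q z = m at h hu
    have h1 : ‖Y' - m⁻¹‖ ≤ B := by
      have k1 := norm_sub_le Y' m⁻¹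
      rw [norm_inv] at k1
      rw [hB]; linarith [h.inv_le hM, le_abs_self M, le_abs_self T, c_norm_le_hyp hY']
    have h2 : ‖Y - m⁻¹‖ ≤ B + ‖Y - Y'‖ := by
      have k1 := norm_add_le (Y - Y') (Y' - m⁻¹)
      rw [sub_add_sub_cancel] at k1
      linarith
    have hd := h.den_pos hY.le; have hd' := h.den_pos hY'.le
    obtain ⟨δ, hδ⟩ : ∃ δ, δ = min (1 / (4 * B)) (ε / (4 * B ^ 2)) := ⟨_, rfl⟩
    rw [← hδ] at hu
    have d0 : 0 ≤ δ := by rw [hδ]; positivity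
    have d1 : δ * (4 * B) ≤ 1 := by
      rw [← le_div_iff₀ (by positivity), hδ]; exact min_le_left _ _
    have d2 : δ * (4 * B ^ 2) ≤ ε := by
      rw [← le_div_iff₀ (by positivity), hδ]; exact min_le_right _ _
    rw [h.U_sub hY.le hY'.le, norm_div, norm_mul, norm_mul, norm_sub_rev Y' Y,
      div_le_iff₀ (by positivity)] at hu
    have h3 := mul_le_mul_of_nonneg_right h.c_ge (norm_nonneg (Y - Y'))
    have h4 := mul_le_mul_of_nonneg_left (mul_le_mul h2 h1 hd'.le (by positivity)) d0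
    have h5 := mul_le_mul_of_nonneg_right d1 (norm_nonneg (Y - Y'))
    nlinarith

end Crest.Agent.R166
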