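import Crest.Agent.R166.C.Prob

/-!
# Row 166, block C: `StC1` and `StC3` (helper9)
-/

set_option autoImplicit false

open MeasureTheory ProbabilityTheory Complex

noncomputable section

namespace Crest.Agent.R166

theorem c_aa_pos {q : ℕ} {κ : ℝ} (hq : 2 ≤ q) (hκ : 0 < κ) : 0 < κ / (2 * √(q : ℝ)) := by
  have hqr : (2 : ℝ) ≤ q := by exact_mod_cast hq
  have hs : 0 < √(q : ℝ) := Real.sqrt_pos.2 (by linarith)
  positivity

theorem c_off_eq {ι : Type} [Fintype ι] [DecidableEq ι] (x : ι → ℝ) :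
    (∑ j, x j) ^ 2 - ∑ j, x j ^ 2 = ∑ j, ∑ i ∈ Finset.univ.erase j, x j * x i := by
  rw [sq, Finset.sum_mul_sum, ← Finset.sum_sub_distrib]
  refine Finset.sum_congr rfl fun j _ => ?_
  rw [← Finset.add_sum_erase _ _ (Finset.mem_univ j), sq]; ring

theorem c_sq_erase {q : ℕ} (j : Fin q) (y : Fin q → ℝ) :
    (∑ i ∈ Finset.univ.erase j, y i) ^ 2 ≤ q * ∑ i ∈ Finset.univ.erase j, y i ^ 2 := by
  refine sq_sum_le_card_mul_sum_sq.trans (mul_le_mul_of_nonneg_right ?_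
    (Finset.sum_nonneg fun i _ => sq_nonneg _))
  have : (Finset.univ.erase j).card ≤ q := by simp
  exact_mod_cast this

theorem c_sq_sum {q : ℕ} (y : Fin q → ℝ) : (∑ i, y i) ^ 2 ≤ q * ∑ i, y i ^ 2 := by
  simpa using sq_sum_le_card_mul_sum_sq (s := Finset.univ) (f := y)

namespace CGd
variable {q : ℕ} {a : ℝ} {z m : ℂ}

theorem qpos (h : CGd q a z m) : (0 : ℝ) < q := by linarith [h.hq']

theorem dist (h : CGd q a z m) : a * ‖m‖⁻¹ / q ≤ z.im + m.im := by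
  have h1 := h.zim_eq
  have h2 := h.inv_im_ge
  have h3 := h.zim
  have h4 := h.hq'
  rw [div_le_iff₀ h.qpos]
  nlinarith

theorem dist' (h : CGd q a z m) : a / q ≤ a * ‖m‖⁻¹ / q :=
  div_le_div_of_nonneg_right h.a_le_mul h.qpos.le

theorem part_im (h : CGd q a z m) {Y : Fin q → ℂ} (hY : ∀ j, 0 ≤ (Y j).im) (T : Finset (Fin q)) :
    a * ‖m‖⁻¹ / q ≤ (∑ j ∈ T, (Y j - m) - (m⁻¹ - m)).im := by
  refine h.dist.trans ?_
  rw [sub_im, sub_im, Complex.im_sum]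
  have h1 : ∑ j ∈ T, (-m.im) ≤ ∑ j ∈ T, (Y j - m).im :=
    Finset.sum_le_sum fun j _ => by rw [sub_im]; linarith [hY j]
  rw [Finset.sum_const, nsmul_eq_mul] at h1
  have h2 : (T.card : ℝ) ≤ q := by exact_mod_cast (by simpa using T.card_le_univ : T.card ≤ q)
  have h3 := mul_le_mul_of_nonneg_right h2 h.im_pos.le
  linarith [h.zim_eq]

theorem norm_ge (h : CGd q a z m) {A : ℂ} {d : ℝ} (hA : d * ‖m‖⁻¹ ≤ A.im) (hd : 0 ≤ d) : d ≤ ‖A‖ := by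
  have h1 := (le_abs_self _).trans (Complex.abs_im_le_norm A)
  nlinarith [h.one_le]

theorem ratio' (h : CGd q a z m) {A : ℂ} {d : ℝ} (hA : d * ‖m‖⁻¹ ≤ A.im) (hd : 0 < d) :
    ‖(m⁻¹ - m) / A‖ ≤ 2 / d := by
  have h1 := (le_abs_self _).trans (Complex.abs_im_le_norm A)
  have h2 : 0 < ‖A‖ := hd.trans_le (h.norm_ge hA hd.le)
  rw [norm_div, div_le_div_iff₀ h2 hd]
  have := mul_le_mul_of_nonneg_right h.c_le hd.le
  linarith

/-- the Koenigs coordinate is additive up to off-diagonal terms -/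
theorem off (h : CGd q a z m) {Y : Fin q → ℂ} (hY : ∀ j, 0 ≤ (Y j).im) {L : ℝ}
    (hL : 1 + 2 / (a / q) ≤ L) (T : Finset (Fin q)) :
    ‖1 + (m⁻¹ - m) / (∑ j ∈ T, (Y j - m) - (m⁻¹ - m))‖ ≤ (1 + L ^ 2) * ∑ j ∈ T, ‖cU m (Y j)‖ ∧
    ‖1 + (m⁻¹ - m) / (∑ j ∈ T, (Y j - m) - (m⁻¹ - m)) - ∑ j ∈ T, cU m (Y j)‖ ≤
      L * (1 + L ^ 2) * ((∑ j ∈ T, ‖cU m (Y j)‖) ^ 2 - ∑ j ∈ T, ‖cU m (Y j)‖ ^ 2) := by
  have haq : 0 < a / q := div_pos h.a_pos h.qpos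
  have him : ∀ T : Finset (Fin q), a / q * ‖m‖⁻¹ ≤ (∑ j ∈ T, (Y j - m) - (m⁻¹ - m)).im := fun T => by
    have := h.part_im hY T
    rwa [mul_div_right_comm] at this
  have hne : ∀ T : Finset (Fin q), ∑ j ∈ T, (Y j - m) - (m⁻¹ - m) ≠ 0 := fun T =>
    norm_pos_iff.1 (haq.trans_le (h.norm_ge (him T) haq.le))
  have hL0 : 0 ≤ L := le_trans (by positivity) hL
  induction T using Finset.induction_on with
  | empty =>
    have hc := hne ∅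
    simp only [Finset.sum_empty, zero_sub] at hc ⊢
    have e : 1 + (m⁻¹ - m) / -(m⁻¹ - m) = 0 := by rw [div_neg, div_self (neg_ne_zero.1 hc)]; ring
    rw [e]; simp
  | insert k T hk ih =>
    obtain ⟨i1, i2⟩ := ih
    have n1 := hne T
    have n2 := hne (insert k T)
    have r1 := h.ratio' (him T) haq
    have r2 := h.ratio' (him (insert k T)) haq
    have n3 := h.den_ne (hY k)
    have u1 := h.U_eq (hY k)
    simp only [Finset.sum_insert hk] at n2 r2 ⊢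
    obtain ⟨P, hP⟩ : ∃ P, P = ∑ j ∈ T, (Y j - m) := ⟨_, rfl⟩
    rw [← hP] at n1 n2 r1 r2 i1 i2 ⊢
    obtain ⟨g, hg⟩ : ∃ g, g = 1 + (m⁻¹ - m) / (P - (m⁻¹ - m)) := ⟨_, rfl⟩
    have e : 1 + (m⁻¹ - m) / (Y k - m + P - (m⁻¹ - m)) = g + cU m (Y k) -
        g * cU m (Y k) * (1 - (m⁻¹ - m) / (Y k - m + P - (m⁻¹ - m))) := by
      rw [u1, hg]
      generalize m⁻¹ = n at *
      field_simp; ring
    have b1 : ‖g‖ ≤ L := by
      have := norm_add_le 1 ((m⁻¹ - m) / (P - (m⁻¹ - m)))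
      rw [norm_one] at this; rw [hg]; linarith
    have b2 : ‖1 - (m⁻¹ - m) / (Y k - m + P - (m⁻¹ - m))‖ ≤ L := by
      have := norm_sub_le 1 ((m⁻¹ - m) / (Y k - m + P - (m⁻¹ - m)))
      rw [norm_one] at this; linarith
    rw [← hg] at i1 i2
    rw [e]
    generalize 1 - (m⁻¹ - m) / (Y k - m + P - (m⁻¹ - m)) = ω at b2
    generalize cU m (Y k) = u
    obtain ⟨S1, hS1⟩ : ∃ S1, S1 = ∑ j ∈ T, ‖cU m (Y j)‖ := ⟨_, rfl⟩
    have hS0 : 0 ≤ S1 := hS1 ▸ Finset.sum_nonneg fun j _ => norm_nonneg _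
    rw [← hS1] at i1 i2 ⊢
    have hu := norm_nonneg u
    have c1 : ‖g * u * ω‖ ≤ ‖g‖ * ‖u‖ * L := by
      rw [norm_mul, norm_mul]; exact mul_le_mul_of_nonneg_left b2 (by positivity)
    constructor
    · have k1 := norm_sub_le (g + u) (g * u * ω)
      have k2 := norm_add_le g u
      have k3 : ‖g‖ * (‖u‖ * L) ≤ L * (‖u‖ * L) := mul_le_mul_of_nonneg_right b1 (by positivity)
      nlinarith
    · have k1 := norm_sub_le (g - ∑ j ∈ T, cU m (Y j)) (g * u * ω)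
      have e2 : g + u - g * u * ω - (u + ∑ j ∈ T, cU m (Y j)) =
          g - ∑ j ∈ T, cU m (Y j) - g * u * ω := by ring
      rw [e2]
      have k3 : ‖g‖ * (‖u‖ * L) ≤ (1 + L ^ 2) * S1 * (‖u‖ * L) :=
        mul_le_mul_of_nonneg_right i1 (by positivity)
      have k4 : 0 ≤ (1 + L ^ 2) * S1 * (‖u‖ * L) := by positivity
      nlinarith

theorem W_eq (h : CGd q a z m) (z' t : ℂ) (Y : Fin q → ℂ) :
    z' - t + ∑ j, Y j + m = ∑ j, (Y j - m) - (m⁻¹ - m) + (z' - z - t) := by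
  rw [Finset.sum_sub_distrib, h.z_eq]; simp; ring

/-- the error of the one-copy recursion -/
theorem err1 (h : CGd q a z m) (hz : 0 < z.im) {s : ℝ} (hs : 0 ≤ s) (w : II) {Y : Fin q → ℂ}
    (hY : ∀ j, 0 < (Y j).im) {L : ℝ} (hL : 1 + 2 / (a / q) ≤ L) :
    ‖cV m (Psi s z w Y) - m ^ 2 * ∑ j, cV m (Y j)‖ ^ 2 ≤ 2 * (2 / (a / q) ^ 2) ^ 2 * s ^ 2 +
      2 * (L * (1 + L ^ 2)) ^ 2 * q ^ 2 *
        ∑ j, ∑ i ∈ Finset.univ.erase j, ‖cV m (Y j)‖ ^ 2 * ‖cV m (Y i)‖ ^ 2 := by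
  have haq : 0 < a / q := div_pos h.a_pos h.qpos
  have hW : 0 < (z - s * (w : ℝ) + ∑ j, Y j).im := by
    rw [c_W_im]; linarith [Finset.sum_nonneg fun j (_ : j ∈ Finset.univ) => (hY j).le]
  rw [cV_eq (c_Psi_im s hz w hY)]
  simp only [cV_eq (hY _)]
  unfold Psi
  rw [h.key hW, h.W_eq, sub_self, zero_sub]
  obtain ⟨-, k1⟩ := h.off (fun j => (hY j).le) hL Finset.univ
  have k2 := h.part_im (fun j => (hY j).le) Finset.univ
  rw [mul_div_right_comm] at k2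
  rw [c_off_eq] at k1
  have k0 := c_sw_le hs w
  have k3 : (-((s : ℂ) * ((w : ℝ) : ℂ))).im = 0 := by simp
  generalize ∑ j, (Y j - m) - (m⁻¹ - m) = A at k1 k2
  rw [← norm_neg] at k0
  generalize -((s : ℂ) * ((w : ℝ) : ℂ)) = t at k0 k3
  have k4 : a / q * ‖m‖⁻¹ ≤ (A + t).im := by rw [add_im, k3, add_zero]; exact k2
  have n1 : a / q ≤ ‖A + t‖ := h.norm_ge k4 haq.le
  have n2 : A ≠ 0 := norm_pos_iff.1 (haq.trans_le (h.norm_ge k2 haq.le))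
  have n3 : A + t ≠ 0 := norm_pos_iff.1 (haq.trans_le n1)
  have e : m ^ 2 * (1 + (m⁻¹ - m) / (A + t)) - m ^ 2 * ∑ j, cU m (Y j) =
      m ^ 2 * ((1 + (m⁻¹ - m) / A - ∑ j, cU m (Y j)) - (m⁻¹ - m) / A * t / (A + t)) := by
    generalize m⁻¹ = n
    field_simp; ring
  have k5 : ‖(m⁻¹ - m) / A * t / (A + t)‖ ≤ 2 / (a / q) ^ 2 * s := by
    rw [norm_div, norm_mul]
    calc _ ≤ (2 / (a / q) * s) / (a / q) := div_le_div₀ (by positivity)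
          (mul_le_mul (h.ratio' k2 haq) k0 (norm_nonneg _) (by positivity)) haq n1
      _ = _ := by field_simp
  have k6 : ‖m ^ 2‖ ≤ 1 := by rw [norm_pow]; linarith [h.sq_half]
  rw [e, norm_mul]
  have k7 := norm_sub_le (1 + (m⁻¹ - m) / A - ∑ j, cU m (Y j)) ((m⁻¹ - m) / A * t / (A + t))
  obtain ⟨O, hO⟩ : ∃ O, O = ∑ j, ∑ i ∈ Finset.univ.erase j, ‖cU m (Y j)‖ * ‖cU m (Y i)‖ := ⟨_, rfl⟩
  have k8 : O ^ 2 ≤ q ^ 2 * ∑ j, ∑ i ∈ Finset.univ.erase j, ‖cU m (Y j)‖ ^ 2 * ‖cU m (Y i)‖ ^ 2 := by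
    rw [hO]
    refine (c_sq_sum _).trans ?_
    rw [pow_two (q : ℝ), mul_assoc]
    refine mul_le_mul_of_nonneg_left ?_ h.qpos.le
    rw [Finset.mul_sum]
    refine Finset.sum_le_sum fun j _ => (c_sq_erase j _).trans (le_of_eq ?_)
    simp only [mul_pow]
  rw [← hO] at k1
  have hx := norm_nonneg (1 + (m⁻¹ - m) / A - ∑ j, cU m (Y j) - (m⁻¹ - m) / A * t / (A + t))
  generalize ‖1 + (m⁻¹ - m) / A - ∑ j, cU m (Y j) - (m⁻¹ - m) / A * t / (A + t)‖ = x at k7 hx ⊢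
  have k9 : ‖m ^ 2‖ * x ≤ L * (1 + L ^ 2) * O + 2 / (a / q) ^ 2 * s := by nlinarith
  have k10 := pow_le_pow_left₀ (by positivity) k9 2
  have k11 := mul_le_mul_of_nonneg_left k8 (sq_nonneg (L * (1 + L ^ 2)))
  generalize 2 / (a / q) ^ 2 = c1 at k10 ⊢
  generalize L * (1 + L ^ 2) = c2 at k10 k11 ⊢
  nlinarith [sq_nonneg (c2 * O - c1 * s)]

/-- the two-copy difference -/
theorem diff (h : CGd q a z m) {z' t : ℂ} {Y Y' : Fin q → ℂ} (hY : ∀ j, 0 ≤ (Y j).im)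
    (hY' : ∀ j, 0 ≤ (Y' j).im) (hW : 0 < (z - t + ∑ j, Y j).im) (hW' : 0 < (z' - t + ∑ j, Y' j).im) :
    cU m (-(z - t + ∑ j, Y j)⁻¹) - cU m (-(z' - t + ∑ j, Y' j)⁻¹) =
      m ^ 2 * (∑ j, (cU m (Y j) - cU m (Y' j)) * ((Y j - m⁻¹) / (z - t + ∑ j, Y j + m) *
        ((Y' j - m⁻¹) / (z' - t + ∑ j, Y' j + m))) +
        (m⁻¹ - m) / (z - t + ∑ j, Y j + m) * ((z' - z) / (z' - t + ∑ j, Y' j + m))) := by
  rw [h.key hW, h.key hW']
  have n : ∀ {W : ℂ}, 0 < W.im → W + m ≠ 0 := by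
    intro W hW e
    have := congrArg Complex.im e
    rw [add_im, zero_im] at this
    linarith [h.im_pos]
  have n1 := n hW; have n2 := n hW'
  have e : ∀ j, (cU m (Y j) - cU m (Y' j)) * ((Y j - m⁻¹) / (z - t + ∑ j, Y j + m) *
      ((Y' j - m⁻¹) / (z' - t + ∑ j, Y' j + m))) = (Y' j - Y j) * ((m⁻¹ - m) /
        ((z - t + ∑ j, Y j + m) * (z' - t + ∑ j, Y' j + m))) := by
    intro j
    rw [h.U_sub (hY j) (hY' j)]
    have := h.den_ne (hY j); have := h.den_ne (hY' j)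
    generalize m⁻¹ = n at *
    field_simp
  simp only [e]
  rw [← Finset.sum_mul, Finset.sum_sub_distrib]
  generalize m⁻¹ = n at *
  generalize ∑ j, Y j = S at *
  generalize ∑ j, Y' j = S' at *
  field_simp; ring

theorem err3 (h : CGd q a z m) {z' : ℂ} (hz : 6 * q + 6 ≤ z.im) (hz' : ‖z - z'‖ ≤ 1) {s : ℝ}
    (hs : 0 ≤ s) (hs1 : s ≤ 1) (w : II) {Y Y' : Fin q → ℂ}
    (hY : ∀ j, 0 < (Y j).im ∧ 0 < (Y' j).im ∧ ‖Y j‖ ≤ 1 ∧ ‖Y' j‖ ≤ 1) :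
    ‖cV m (Psi s z w Y) - cV m (Psi s z' w Y')‖ ^ 2 ≤
      1 / (2 * q) * ∑ j, ‖cV m (Y j) - cV m (Y' j)‖ ^ 2 + 32 * ‖z - z'‖ ^ 2 := by
  have hq := h.hq'
  have hz0 : 0 < z.im := by linarith
  have hz0' : 0 < z'.im := by
    have := (le_abs_self _).trans (Complex.abs_im_le_norm (z - z'))
    rw [sub_im] at this; linarith
  have hW : 0 < (z - s * (w : ℝ) + ∑ j, Y j).im := by
    rw [c_W_im]; linarith [Finset.sum_nonneg fun j (_ : j ∈ Finset.univ) => (hY j).1.le]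
  have hW' : 0 < (z' - s * (w : ℝ) + ∑ j, Y' j).im := by
    rw [c_W_im]; linarith [Finset.sum_nonneg fun j (_ : j ∈ Finset.univ) => (hY j).2.1.le]
  rw [cV_eq (c_Psi_im s hz0 w fun j => (hY j).1), cV_eq (c_Psi_im s hz0' w fun j => (hY j).2.1)]
  simp only [cV_eq (hY _).1, cV_eq (hY _).2.1]
  unfold Psi
  rw [h.diff (fun j => (hY j).1.le) (fun j => (hY j).2.1.le) hW hW']
  have hρ : 6 * q + 6 ≤ ‖m‖⁻¹ := hz.trans h.zim_le
  have k0 := c_sw_le hs w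
  have low : ∀ (y : ℂ) (X : Fin q → ℂ), ‖y - z‖ ≤ 1 → (∀ j, ‖X j‖ ≤ 1) →
      ‖m‖⁻¹ / 2 ≤ ‖y - s * (w : ℝ) + ∑ j, X j + m‖ := by
    intro y X hy hX
    rw [h.W_eq]
    have a1 : ‖∑ j, (X j - m)‖ ≤ 2 * q := by
      refine (norm_sum_le _ _).trans ?_
      calc _ ≤ ∑ j : Fin q, (2 : ℝ) := Finset.sum_le_sum fun j _ => by
              linarith [norm_sub_le (X j) m, hX j, h.le_one]
        _ = 2 * q := by simp [mul_comm]
    have a2 := norm_sub_le (y - z) (s * (w : ℝ))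
    have e : m⁻¹ = ∑ j, (X j - m) + m + (y - z - s * (w : ℝ)) -
        (∑ j, (X j - m) - (m⁻¹ - m) + (y - z - s * (w : ℝ))) := by ring
    have a3 := norm_sub_le (∑ j, (X j - m) + m + (y - z - s * (w : ℝ)))
      (∑ j, (X j - m) - (m⁻¹ - m) + (y - z - s * (w : ℝ)))
    rw [← e, norm_inv] at a3
    have a4 := norm_add₃_le (a := ∑ j, (X j - m)) (b := m) (c := y - z - s * (w : ℝ))
    linarith [h.le_one]
  have l1 := low z Y (by simp) fun j => (hY j).2.2.1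
  have l2 := low z' Y' (by rwa [norm_sub_rev]) fun j => (hY j).2.2.2
  generalize z - s * (w : ℝ) + ∑ j, Y j + m = A at l1 ⊢
  generalize z' - s * (w : ℝ) + ∑ j, Y' j + m = A' at l2 ⊢
  have hρ0 : 0 < ‖m‖⁻¹ / 2 := by linarith
  have up : ∀ {X B : ℂ}, ‖X‖ ≤ 2 * ‖m‖⁻¹ → ‖m‖⁻¹ / 2 ≤ ‖B‖ → ‖X / B‖ ≤ 4 := by
    intro X B h1 h2
    rw [norm_div, div_le_iff₀ (hρ0.trans_le h2)]; linarith
  have up' : ∀ {X : ℂ}, ‖X‖ ≤ 1 → ‖X - m⁻¹‖ ≤ 2 * ‖m‖⁻¹ := by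
    intro X h1
    have := norm_sub_le X m⁻¹
    rw [norm_inv] at this; linarith
  have b1 : ‖∑ j, (cU m (Y j) - cU m (Y' j)) * ((Y j - m⁻¹) / A * ((Y' j - m⁻¹) / A'))‖ ≤
      16 * ∑ j, ‖cU m (Y j) - cU m (Y' j)‖ := by
    rw [Finset.mul_sum]
    refine (norm_sum_le _ _).trans (Finset.sum_le_sum fun j _ => ?_)
    rw [norm_mul, norm_mul, mul_comm]
    refine mul_le_mul_of_nonneg_right ?_ (norm_nonneg _)
    have := mul_le_mul (up (up' (hY j).2.2.1) l1) (up (up' (hY j).2.2.2) l2) (norm_nonneg _)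
      (by norm_num)
    linarith
  have b2 : ‖(m⁻¹ - m) / A * ((z' - z) / A')‖ ≤ 4 * ‖z - z'‖ := by
    rw [norm_mul]
    refine mul_le_mul (up h.c_le l1) ?_ (norm_nonneg _) (by norm_num)
    rw [norm_div, norm_sub_rev]
    exact div_le_self (norm_nonneg _) (by linarith)
  have b3 : ‖m‖ ^ 2 * 16 ≤ 1 / (2 * q) := by
    rw [le_div_iff₀ (by linarith)]
    have e : ‖m‖ * ‖m‖⁻¹ = 1 := mul_inv_cancel₀ h.npos.ne'
    have a1 : (6 * q) * ‖m‖ ≤ 1 := by nlinarith [h.npos]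
    have a2 := pow_le_pow_left₀ (by positivity) a1 2
    nlinarith [sq_nonneg ‖m‖]
  have b4 := c_sq_sum fun j => ‖cU m (Y j) - cU m (Y' j)‖
  obtain ⟨S, hS⟩ : ∃ S, S = ∑ j, ‖cU m (Y j) - cU m (Y' j)‖ := ⟨_, rfl⟩
  have hS0 : 0 ≤ S := hS ▸ Finset.sum_nonneg fun j _ => norm_nonneg _
  rw [← hS] at b1 b4
  have b5 : ‖m ^ 2 * (∑ j, (cU m (Y j) - cU m (Y' j)) * ((Y j - m⁻¹) / A * ((Y' j - m⁻¹) / A')) +
      (m⁻¹ - m) / A * ((z' - z) / A'))‖ ≤ 1 / (2 * q) * S + 4 * ‖z - z'‖ := by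
    rw [norm_mul, norm_pow]
    have a1 := mul_le_mul_of_nonneg_left ((norm_add_le _ _).trans (add_le_add b1 b2)) (sq_nonneg ‖m‖)
    have a2 := mul_le_mul_of_nonneg_right b3 hS0
    have a3 := mul_le_mul_of_nonneg_right h.sq_half (norm_nonneg (z - z'))
    nlinarith [norm_nonneg (z - z')]
  have b6 := pow_le_pow_left₀ (norm_nonneg _) b5 2
  refine b6.trans ?_
  have b7 : 2 * (1 / (2 * q) * S) ^ 2 ≤ 1 / (2 * q) * ∑ j, ‖cU m (Y j) - cU m (Y' j)‖ ^ 2 := by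
    have e : 2 * (1 / (2 * q) * S) ^ 2 = 1 / (2 * q) * (S ^ 2 / q) := by field_simp
    rw [e]
    refine mul_le_mul_of_nonneg_left ?_ (by positivity)
    rw [div_le_iff₀ (by linarith)]; linarith
  nlinarith [sq_nonneg (1 / (2 * q) * S - 4 * ‖z - z'‖)]

end CGd

theorem c_T1_int {q : ℕ} (π : Measure II) (s : ℝ) (z : ℂ) (ν : Measure ℂ) {𝕜 : Type} [RCLike 𝕜]
    {G : ℂ → 𝕜} (hG : Measurable G) :
    ∫ Y, G Y ∂T1 q π s z ν = ∫ p, G (Psi s z p.1 p.2) ∂cP q π ν :=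
  integral_map (c_meas_Psi s z measurable_id).aemeasurable hG.aestronglyMeasurable

theorem c_T2_int {q : ℕ} (π : Measure II) (s : ℝ) (z z' : ℂ) (μ : Measure (ℂ × ℂ)) {𝕜 : Type}
    [RCLike 𝕜] {G : ℂ × ℂ → 𝕜} (hG : Measurable G) :
    ∫ Y, G Y ∂T2 q π s z z' μ =
      ∫ p, G (Psi s z p.1 fun j => (p.2 j).1, Psi s z' p.1 fun j => (p.2 j).2) ∂cP q π μ :=
  integral_map ((c_meas_Psi s z measurable_fst).prodMk
    (c_meas_Psi s z' measurable_snd)).aemeasurable hG.aestronglyMeasurable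

theorem c1_arith {X E θ s c1 c2 c3 Q : ℝ} (p1 : 0 ≤ c1) (p2 : 0 ≤ c2) (p3 : 0 ≤ c3) (hQ : 0 ≤ Q)
    (hθ : 0 ≤ θ) (hθ1 : θ ≤ 1) (hX0 : 0 ≤ X) (hX : X ≤ 1 / (2 * ((12 + c3) * c2 * Q) + 1))
    (k1 : X ≤ 4 * θ + c3 * θ ^ 2 + (12 + c3) * E) (k2 : E ≤ c1 * s ^ 2 + c2 * (Q * (X * X))) :
    X ≤ (2 * (4 + c3) + 2 * ((12 + c3) * c1)) * (s ^ 2 + θ) := by
  have k4 := mul_le_mul_of_nonneg_left k2 (show 0 ≤ 12 + c3 by linarith)
  rw [le_div_iff₀ (by positivity)] at hX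
  have k5 := mul_le_mul_of_nonneg_left hX hX0
  have k6 : c3 * θ ^ 2 ≤ c3 * θ := mul_le_mul_of_nonneg_left (by nlinarith) p3
  have k7 : 0 ≤ (12 + c3) * c1 * θ := by positivity
  have k8 : 0 ≤ (4 + c3) * s ^ 2 := by positivity
  nlinarith [mul_self_nonneg X]

theorem c_meas_Psi1 {q : ℕ} (s : ℝ) (z : ℂ) :
    Measurable fun p : II × (Fin q → ℂ) => Psi s z p.1 p.2 := by
  have h := c_meas_Psi (q := q) s z (Y := fun x : ℂ => x) measurable_id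
  exact h

theorem stC1 : StC1 := by
  intro q κ hq hκ
  obtain ⟨a, ha⟩ : ∃ a, a = κ / (2 * √(q : ℝ)) := ⟨_, rfl⟩
  have ha0 : 0 < a := ha ▸ c_aa_pos hq hκ
  obtain ⟨L, hL⟩ : ∃ L, L = 1 + 2 / (a / q) := ⟨_, rfl⟩
  obtain ⟨c1, hc1⟩ : ∃ c : ℝ, c = 2 * (2 / (a / q) ^ 2) ^ 2 := ⟨_, rfl⟩
  obtain ⟨c2, hc2⟩ : ∃ c : ℝ, c = 2 * (L * (1 + L ^ 2)) ^ 2 * q ^ 2 := ⟨_, rfl⟩
  obtain ⟨c3, hc3⟩ : ∃ c : ℝ, c = 12 / a ^ 2 := ⟨_, rfl⟩
  have p1 : 0 ≤ c1 := by rw [hc1]; positivity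
  have p2 : 0 ≤ c2 := by rw [hc2]; positivity
  have p3 : 0 ≤ c3 := by rw [hc3]; positivity
  refine ⟨1 / (2 * ((12 + c3) * c2 * q ^ 2) + 1), 2 * (4 + c3) + 2 * ((12 + c3) * c1),
    by positivity, ?_⟩
  intro z s θ π _ ν _ hz hb hs _ hθ hθ1 hν hX h1 h2
  have h : CGd q a z (m0 q z) := ha ▸ c_gd hq hκ hz.le hb
  simp only [c_uu] at hX h1 h2 ⊢
  generalize m0 q z = m at h hX h1 h2 ⊢
  have hae := cP_ae (q := q) π ν hν
  have hF : CBM fun p : II × (Fin q → ℂ) => cV m (Psi s z p.1 p.2) :=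
    h.V_bm.comp (c_meas_Psi1 s z)
  rw [c_T1_int π s z ν (c_meas_U m)] at h1
  rw [c_T1_int π s z ν ((c_meas_U m).norm.pow_const 2)] at h2
  have e1 : ∫ Y, cU m Y ∂ν = ∫ Y, cV m Y ∂ν :=
    integral_congr_ae (hν.mono fun Y hY => (cV_eq hY).symm)
  have e2 : ∫ Y, ‖cU m Y‖ ^ 2 ∂ν = ∫ Y, ‖cV m Y‖ ^ 2 ∂ν :=
    integral_congr_ae (hν.mono fun Y hY => by simp only [cV_eq hY])
  have e3 : ∫ p, cU m (Psi s z p.1 p.2) ∂cP q π ν = ∫ p, cV m (Psi s z p.1 p.2) ∂cP q π ν :=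
    integral_congr_ae (hae.mono fun p hp => (cV_eq (c_Psi_im s hz p.1 hp)).symm)
  have e4 : ∫ p, ‖cU m (Psi s z p.1 p.2)‖ ^ 2 ∂cP q π ν =
      ∫ p, ‖cV m (Psi s z p.1 p.2)‖ ^ 2 ∂cP q π ν :=
    integral_congr_ae (hae.mono fun p hp => by simp only [cV_eq (c_Psi_im s hz p.1 hp)])
  rw [e1, e3] at h1
  rw [e2, e4] at h2
  rw [e2] at hX ⊢
  have k1 := c_lin π ν h.V_bm hF hq ha0 h.lam1 h.lam2 h1 (θ₂ := θ) (by linarith [(abs_le.1 h2).2])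
  have hv := h.V_bm.norm.pow 2
  have hoff : CBM fun p : II × (Fin q → ℂ) =>
      ∑ j, ∑ i ∈ Finset.univ.erase j, ‖cV m (p.2 j)‖ ^ 2 * ‖cV m (p.2 i)‖ ^ 2 :=
    CBM.sum _ fun j => CBM.sum _ fun i => (hv.comp (c_meas_ev j)).mul (hv.comp (c_meas_ev i))
  have k2 : ∫ p, ‖cV m (Psi s z p.1 p.2) - m ^ 2 * ∑ j, cV m (p.2 j)‖ ^ 2 ∂cP q π ν ≤
      ∫ p, (c1 * s ^ 2 + c2 *
        ∑ j, ∑ i ∈ Finset.univ.erase j, ‖cV m (p.2 j)‖ ^ 2 * ‖cV m (p.2 i)‖ ^ 2) ∂cP q π ν := by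
    refine integral_mono_ae (((hF.sub ((CBM.sum _ fun j =>
      h.V_bm.comp (c_meas_ev j)).cmul _)).norm.pow 2).int _)
      (((CBM.const _).add (hoff.cmul _)).int _) (hae.mono fun p hp => ?_)
    rw [hc1, hc2]
    exact h.err1 hz hs p.1 hp hL.ge
  rw [integral_add ((CBM.const _).int _) ((hoff.cmul _).int _), integral_const_mul c2] at k2
  simp only [integral_const, probReal_univ, smul_eq_mul, one_mul] at k2
  have k3 := mul_le_mul_of_nonneg_left (cP_off (q := q) π ν hv hv (mul_self_nonneg _)) p2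
  rw [← hc3] at k1
  exact c1_arith p1 p2 p3 (by positivity) hθ hθ1 (integral_nonneg fun Y => sq_nonneg _) hX k1
    (k2.trans (add_le_add_right k3 _))

theorem stC3 : StC3 := by
  intro q κ hq hκ
  have hqr : (2 : ℝ) ≤ q := by exact_mod_cast hq
  refine ⟨6 * q + 6, 64, by linarith, ?_⟩
  intro z z' s θ π _ μ _ hz hb hz' hs hs1 hμ h2
  have hz0 : 0 < z.im := by linarith
  have hz0' : 0 < z'.im := by
    have := (le_abs_self _).trans (Complex.abs_im_le_norm (z - z'))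
    rw [sub_im] at this; linarith
  have h := c_gd hq hκ hz0.le hb
  simp only [c_uu] at h2 ⊢
  generalize m0 q z = m at h h2 ⊢
  have hae := cP_ae (q := q) π μ hμ
  have hm : Measurable fun p : ℂ × ℂ => ‖cU m p.1 - cU m p.2‖ ^ 2 :=
    (((c_meas_U m).comp measurable_fst).sub ((c_meas_U m).comp measurable_snd)).norm.pow_const 2
  rw [c_T2_int π s z z' μ hm] at h2
  have e2 : ∫ p, ‖cU m p.1 - cU m p.2‖ ^ 2 ∂μ = ∫ p, ‖cV m p.1 - cV m p.2‖ ^ 2 ∂μ :=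
    integral_congr_ae (hμ.mono fun p hp => by simp only [cV_eq hp.1, cV_eq hp.2.1])
  have hv : CBM fun p : ℂ × ℂ => ‖cV m p.1 - cV m p.2‖ ^ 2 :=
    ((h.V_bm.comp measurable_fst).sub (h.V_bm.comp measurable_snd)).norm.pow 2
  have hS := CBM.sum Finset.univ fun j : Fin q => hv.comp (c_meas_ev j)
  have k1 : ∫ p, ‖cU m (Psi s z p.1 fun j => (p.2 j).1) - cU m (Psi s z' p.1 fun j => (p.2 j).2)‖ ^ 2
      ∂cP q π μ ≤ ∫ p, (1 / (2 * q) * ∑ j, ‖cV m (p.2 j).1 - cV m (p.2 j).2‖ ^ 2 +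
        32 * ‖z - z'‖ ^ 2) ∂cP q π μ := by
    refine integral_mono_of_nonneg (Filter.Eventually.of_forall fun p => sq_nonneg _)
      (((hS.cmul _).add (CBM.const _)).int _) (hae.mono fun p hp => ?_)
    have := h.err3 hz hz' hs hs1 p.1 hp
    rwa [cV_eq (c_Psi_im s hz0 p.1 fun j => (hp j).1),
      cV_eq (c_Psi_im s hz0' p.1 fun j => (hp j).2.1)] at this
  rw [integral_add ((hS.cmul _).int _) ((CBM.const _).int _), integral_const_mul, cP_sum π μ hv] at k1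
  simp only [integral_const, probReal_univ, smul_eq_mul, one_mul] at k1
  have e : ∀ X : ℝ, 1 / (2 * q) * (q * X) = X / 2 := fun X => by field_simp
  rw [e] at k1
  rw [e2] at h2 ⊢
  have := (abs_le.1 h2).2
  linarith

end Crest.Agent.R166
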