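import Crest.Agent.R166.C.Tail

/-!
# Row 166, block C: `StC2` (helper9)
-/

set_option autoImplicit false

open MeasureTheory ProbabilityTheory Complex Filter

noncomputable section

namespace Crest.Agent.R166

/-! ## test functions -/

theorem cTr_lip {N h h' : ℝ} (hN : 0 < N) (h0 : 0 < h) (h0' : 0 < h') :
    (cTr N h / N - cTr N h' / N) ^ 2 ≤ (h - h') ^ 2 / (h * h') := by
  wlog hle : h ≤ h' generalizing h h'
  · have := this h0' h0 (not_le.1 hle).le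
    rwa [← neg_sub, neg_sq, ← neg_sub h, neg_sq, mul_comm] at this
  rw [← sub_div, div_pow, div_le_div_iff₀ (by positivity) (by positivity)]
  rcases le_total h' N with h1 | h1
  · rw [cTr_eq h0.le (hle.trans h1), cTr_eq h0'.le h1]
    exact mul_le_mul_of_nonneg_left (by nlinarith) (sq_nonneg _)
  rw [cTr_top hN.le h1]
  rcases le_total h N with h2 | h2
  · rw [cTr_eq h0.le h2]
    obtain ⟨e, rfl⟩ : ∃ e, h' = N + e := ⟨h' - N, by ring⟩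
    obtain ⟨f, rfl⟩ : ∃ f, N = h + f := ⟨N - h, by ring⟩
    have he : 0 ≤ e := by linarith
    have hf : 0 ≤ f := by linarith
    have : (h - (h + f + e)) ^ 2 * (h + f) ^ 2 - (h - (h + f)) ^ 2 * (h * (h + f + e)) =
        f ^ 2 * (h + f) * f + e * f * (2 * h ^ 2 + 3 * h * f + 2 * f ^ 2) + e ^ 2 * (h + f) ^ 2 := by
      ring
    have : 0 ≤ f ^ 2 * (h + f) * f + e * f * (2 * h ^ 2 + 3 * h * f + 2 * f ^ 2) +
        e ^ 2 * (h + f) ^ 2 := by positivity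
    linarith
  · rw [cTr_top hN.le h2, sub_self]
    have : 0 ≤ (h - h') ^ 2 * N ^ 2 := by positivity
    simpa using this

theorem c_gam_nonneg {Y Y' : ℂ} (h : 0 < Y.im) (h' : 0 < Y'.im) : 0 ≤ gam Y Y' := by
  unfold gam; positivity

theorem c_hh_gam {Y Y' : ℂ} (h : 0 < Y.im) (h' : 0 < Y'.im) :
    (chh Y - chh Y') ^ 2 / (chh Y * chh Y') ≤ gam Y Y' := by
  have e : (chh Y - chh Y') ^ 2 / (chh Y * chh Y') = (Y.im - Y'.im) ^ 2 / (Y.im * Y'.im) := by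
    unfold chh; field_simp; ring
  rw [e]; unfold gam
  refine div_le_div_of_nonneg_right ?_ (by positivity)
  rw [← sq_abs, ← sub_im]
  exact pow_le_pow_left₀ (abs_nonneg _) (Complex.abs_im_le_norm _) 2

theorem c_ne {Y : ℂ} (h : 0 < Y.im) : Y ≠ 0 := by rintro rfl; simp at h

theorem c_inv_pos {Y : ℂ} (h : 0 < Y.im) : 0 < (-Y⁻¹).im := by
  rw [c_neg_inv_im]; have := norm_pos_iff.2 (c_ne h); positivity

theorem c_gam_inv {Y Y' : ℂ} (h : 0 < Y.im) (h' : 0 < Y'.im) : gam (-Y⁻¹) (-Y'⁻¹) = gam Y Y' := by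
  have n := c_ne h; have n' := c_ne h'
  have e : -Y⁻¹ - -Y'⁻¹ = (Y - Y') / (Y * Y') := by field_simp; ring
  unfold gam
  rw [c_neg_inv_im, c_neg_inv_im, e, norm_div, norm_mul]
  have := norm_pos_iff.2 n; have := norm_pos_iff.2 n'
  field_simp

/-- the tail test function -/
def cG (N : ℝ) (Y : ℂ) : ℝ := (cTr N (chh Y) / N) ^ 8

theorem cG_bd {N : ℝ} (hN : 0 < N) (x : ℝ) : |cTr N x / N| ≤ 1 := by
  rw [abs_of_nonneg (div_nonneg (cTr_nonneg _ _) hN.le), div_le_one hN]; exact cTr_le hN.le x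

theorem cG_meas (N : ℝ) : Measurable (cG N) :=
  (((c_meas_Tr N).comp c_meas_hh).div_const N).pow_const 8

theorem cG_le {N : ℝ} (hN : 0 < N) (Y : ℂ) : |cG N Y| ≤ 1 := by
  unfold cG; rw [abs_pow]; exact pow_le_one₀ (abs_nonneg _) (cG_bd hN _)

theorem cG_lip {N : ℝ} (hN : 0 < N) {Y Y' : ℂ} (h : 0 < Y.im) (h' : 0 < Y'.im) :
    |cG N Y - cG N Y'| ^ 2 ≤ 64 * gam Y Y' := by
  have h1 := abs_pow_sub_pow_le (cTr N (chh Y) / N) (cTr N (chh Y') / N) 8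
  have h2 : max |cTr N (chh Y) / N| |cTr N (chh Y') / N| ^ (8 - 1) ≤ 1 :=
    pow_le_one₀ ((abs_nonneg _).trans (le_max_left _ _)) (max_le (cG_bd hN _) (cG_bd hN _))
  have h3 := (cTr_lip hN (chh_pos h) (chh_pos h')).trans (c_hh_gam h h')
  rw [← sq_abs] at h3
  have h4 : |cG N Y - cG N Y'| ≤ |cTr N (chh Y) / N - cTr N (chh Y') / N| * 8 := by
    refine h1.trans ?_
    push_cast
    exact mul_le_of_le_one_right (by positivity) h2
  have h5 := pow_le_pow_left₀ (abs_nonneg _) h4 2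
  nlinarith

theorem c_glip_hh1 {N : ℝ} (hN : 0 < N) : GLip 64 fun p => cG N p.1 :=
  ⟨(cG_meas N).comp measurable_fst, fun _ => cG_le hN _, fun _ _ a b c d => by
    linarith [cG_lip hN a c, c_gam_nonneg b d]⟩

theorem c_glip_hh2 {N : ℝ} (hN : 0 < N) : GLip 64 fun p => cG N p.2 :=
  ⟨(cG_meas N).comp measurable_snd, fun _ => cG_le hN _, fun _ _ a b c d => by
    linarith [cG_lip hN b d, c_gam_nonneg a c]⟩

theorem c_glip_kk1 {N : ℝ} (hN : 0 < N) : GLip 64 fun p => cG N (-p.1⁻¹) :=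
  ⟨(cG_meas N).comp measurable_fst.inv.neg, fun _ => cG_le hN _, fun _ _ a b c d => by
    have := cG_lip hN (c_inv_pos a) (c_inv_pos c)
    rw [c_gam_inv a c] at this
    linarith [c_gam_nonneg b d]⟩

theorem c_glip_kk2 {N : ℝ} (hN : 0 < N) : GLip 64 fun p => cG N (-p.2⁻¹) :=
  ⟨(cG_meas N).comp measurable_snd.inv.neg, fun _ => cG_le hN _, fun _ _ a b c d => by
    have := cG_lip hN (c_inv_pos b) (c_inv_pos d)
    rw [c_gam_inv b d] at this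
    linarith [c_gam_nonneg a c]⟩

/-- the difference of the Koenigs coordinates -/
def cD (m : ℂ) (p : ℂ × ℂ) : ℂ := cV m p.1 - cV m p.2

/-- truncated distance to `m` -/
def ct (m : ℂ) (N : ℝ) (Y : ℂ) : ℝ := min ‖Y - m‖ (1 + cTr N (ckk Y))

def cg (m : ℂ) (N : ℝ) (Y : ℂ) : ℝ := ct m N Y ^ 2 + ct m N Y ^ 4

theorem ct_nonneg (m : ℂ) (N : ℝ) (Y : ℂ) : 0 ≤ ct m N Y :=
  le_min (norm_nonneg _) (by linarith [cTr_nonneg N (ckk Y)])

theorem cg_nonneg (m : ℂ) (N : ℝ) (Y : ℂ) : 0 ≤ cg m N Y := by unfold cg; positivity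

theorem cg_bm (m : ℂ) {N : ℝ} (hN : 0 ≤ N) : CBM (cg m N) := by
  have h : CBM (ct m N) := ⟨(measurable_id.sub_const m).norm.min
    (measurable_const.add ((c_meas_Tr N).comp c_meas_kk)), 1 + N, fun Y => by
      rw [Real.norm_of_nonneg (ct_nonneg _ _ _)]
      exact (min_le_right _ _).trans (by linarith [cTr_le hN (ckk Y)])⟩
  exact (h.pow 2).add (h.pow 4)

theorem c_T_bound {q : ℕ} (hq : 2 ≤ q) (j : Fin q) (t : Fin q → ℝ) {y T : ℝ} (hy : 0 ≤ y)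
    (hy1 : y ≤ 1) (hT0 : 0 ≤ T) (hT : T ≤ ∑ i ∈ Finset.univ.erase j, t i + y) :
    T ^ 2 + T ^ 4 ≤ 8 * q ^ 3 * ∑ i ∈ Finset.univ.erase j, (t i ^ 2 + t i ^ 4) + 10 * y ^ 2 := by
  have hqr : (2 : ℝ) ≤ q := by exact_mod_cast hq
  have h1 := c_sq_erase j t
  have h2 := c_sq_erase j fun i => t i ^ 2
  simp only [← pow_mul] at h2
  rw [Finset.sum_add_distrib]
  have p2 : 0 ≤ ∑ i ∈ Finset.univ.erase j, t i ^ 2 := Finset.sum_nonneg fun i _ => by positivity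
  have p4 : 0 ≤ ∑ i ∈ Finset.univ.erase j, t i ^ 4 := Finset.sum_nonneg fun i _ => by positivity
  generalize ∑ i ∈ Finset.univ.erase j, t i = S at *
  generalize ∑ i ∈ Finset.univ.erase j, t i ^ 2 = S2 at *
  generalize ∑ i ∈ Finset.univ.erase j, t i ^ 4 = S4 at *
  have a1 : T ^ 2 ≤ 2 * (q * S2) + 2 * y ^ 2 := by
    nlinarith [pow_le_pow_left₀ hT0 hT 2, sq_nonneg (S - y)]
  have a2 : T ^ 4 ≤ 8 * (q ^ 2 * S2 ^ 2) + 8 * y ^ 4 := by
    have := pow_le_pow_left₀ (sq_nonneg T) a1 2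
    nlinarith [sq_nonneg (q * S2 - y ^ 2)]
  have a3 := mul_le_mul_of_nonneg_left h2 (sq_nonneg (q : ℝ))
  have a4 : y ^ 4 ≤ y ^ 2 := pow_le_pow_of_le_one hy hy1 (by norm_num)
  have a5 : (q : ℝ) ≤ q ^ 3 := by nlinarith
  have a6 := mul_le_mul_of_nonneg_right a5 p2
  have a7 : 0 ≤ (q : ℝ) ^ 3 * S2 := by positivity
  nlinarith

theorem c_rr {r r' : ℂ} {T T' d : ℝ} (hd : 0 < d) (hd1 : d ≤ 1) (h : ‖r - 1‖ ≤ T / d)
    (h' : ‖r' - 1‖ ≤ T' / d) :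
    ‖r * r' - 1‖ ^ 2 ≤ 3 / d ^ 4 * (T ^ 2 + T ^ 4 + (T' ^ 2 + T' ^ 4)) := by
  have e : r * r' - 1 = (r - 1) + (r' - 1) + (r - 1) * (r' - 1) := by ring
  have h1 := norm_add₃_le (a := r - 1) (b := r' - 1) (c := (r - 1) * (r' - 1))
  rw [← e, norm_mul] at h1
  have h0 := (norm_nonneg _).trans h
  have h0' := (norm_nonneg _).trans h'
  have h2 := mul_le_mul h h' (norm_nonneg _) h0
  have h3 : T / d ≤ T / d ^ 2 := by
    rw [pow_two, ← div_div]; exact le_div_self h0 hd hd1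
  have h3' : T' / d ≤ T' / d ^ 2 := by
    rw [pow_two, ← div_div]; exact le_div_self h0' hd hd1
  have h4 : ‖r * r' - 1‖ ≤ (T + T' + T * T') / d ^ 2 := by
    have : (T + T' + T * T') / d ^ 2 = T / d ^ 2 + T' / d ^ 2 + T / d * (T' / d) := by
      field_simp
    linarith
  refine (pow_le_pow_left₀ (norm_nonneg _) h4 2).trans ?_
  rw [div_pow, ← pow_mul, div_mul_eq_mul_div]
  refine div_le_div_of_nonneg_right ?_ (by positivity)
  nlinarith [sq_nonneg (T - T'), sq_nonneg (T - T * T'), sq_nonneg (T' - T * T'),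
    sq_nonneg (T ^ 2 - T' ^ 2), sq_nonneg (T ^ 2), sq_nonneg (T' ^ 2)]

namespace CGd
variable {q : ℕ} {a : ℝ} {z m : ℂ}

theorem D_le (h : CGd q a z m) (p : ℂ × ℂ) : ‖cD m p‖ ≤ 6 / a := by
  have : 6 / a = 3 / a + 3 / a := by ring
  unfold cD
  linarith [norm_sub_le (cV m p.1) (cV m p.2), h.V_le p.1, h.V_le p.2]

theorem D_bm (h : CGd q a z m) : CBM (cD m) :=
  (h.V_bm.comp measurable_fst).sub (h.V_bm.comp measurable_snd)

theorem D_lip (h : CGd q a z m) {p p' : ℂ × ℂ} (h1 : 0 < p.1.im) (h2 : 0 < p.2.im)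
    (h3 : 0 < p'.1.im) (h4 : 0 < p'.2.im) :
    (‖cD m p - cD m p'‖ / (6 / a)) ^ 2 ≤ gam p.1 p'.1 + gam p.2 p'.2 := by
  have ha := h.a_pos
  have k1 := h.U_gam h1 h3
  have k2 := h.U_gam h2 h4
  have e : cD m p - cD m p' = (cU m p.1 - cU m p'.1) - (cU m p.2 - cU m p'.2) := by
    unfold cD; rw [cV_eq h1, cV_eq h2, cV_eq h3, cV_eq h4]; ring
  have k3 := pow_le_pow_left₀ (norm_nonneg _)
    (norm_sub_le (cU m p.1 - cU m p'.1) (cU m p.2 - cU m p'.2)) 2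
  have g1 := c_gam_nonneg h1 h3
  have g2 := c_gam_nonneg h2 h4
  rw [e, div_pow, div_le_iff₀ (by positivity)]
  have e2 : (6 / a) ^ 2 = 36 * (1 / a ^ 2) := by field_simp; norm_num
  rw [e2]
  have g3 : 0 ≤ 1 / a ^ 2 * gam p.1 p'.1 := by positivity
  have g4 : 0 ≤ 1 / a ^ 2 * gam p.2 p'.2 := by positivity
  nlinarith [sq_nonneg (‖cU m p.1 - cU m p'.1‖ - ‖cU m p.2 - cU m p'.2‖)]

theorem glip_lin (h : CGd q a z m) (φ : ℂ → ℝ) (hφ : Measurable φ) (h1 : ∀ w, |φ w| ≤ ‖w‖)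
    (h2 : ∀ w w', φ w - φ w' = φ (w - w')) : GLip 64 fun p => φ (cD m p) / (6 / a) := by
  have ha := h.a_pos
  have hb : 0 < 6 / a := by positivity
  refine ⟨(hφ.comp h.D_bm.meas).div_const _, fun p => ?_, fun p p' a1 a2 a3 a4 => ?_⟩
  · rw [abs_div, abs_of_pos hb, div_le_one hb]; exact (h1 _).trans (h.D_le p)
  · have k1 := h.D_lip a1 a2 a3 a4
    have k2 : |φ (cD m p) / (6 / a) - φ (cD m p') / (6 / a)| ≤ ‖cD m p - cD m p'‖ / (6 / a) := by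
      rw [← sub_div, abs_div, abs_of_pos hb, h2]
      exact div_le_div_of_nonneg_right (h1 _) hb.le
    have k3 := pow_le_pow_left₀ (abs_nonneg _) k2 2
    linarith [c_gam_nonneg a1 a3, c_gam_nonneg a2 a4]

theorem glip_sq (h : CGd q a z m) : GLip 64 fun p => ‖cD m p‖ ^ 2 / (6 / a) ^ 2 := by
  have ha := h.a_pos
  have hb : 0 < 6 / a := by positivity
  refine ⟨(h.D_bm.meas.norm.pow_const 2).div_const _, fun p => ?_, fun p p' a1 a2 a3 a4 => ?_⟩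
  · rw [abs_of_nonneg (by positivity), div_le_one (by positivity)]
    exact pow_le_pow_left₀ (norm_nonneg _) (h.D_le p) 2
  · have k1 := h.D_lip a1 a2 a3 a4
    have k2 : |‖cD m p‖ ^ 2 / (6 / a) ^ 2 - ‖cD m p'‖ ^ 2 / (6 / a) ^ 2| ≤
        2 * (‖cD m p - cD m p'‖ / (6 / a)) := by
      have e : ‖cD m p‖ ^ 2 / (6 / a) ^ 2 - ‖cD m p'‖ ^ 2 / (6 / a) ^ 2 =
          ((‖cD m p‖ + ‖cD m p'‖) / (6 / a)) * ((‖cD m p‖ - ‖cD m p'‖) / (6 / a)) := by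
        generalize 6 / a = b
        ring
      rw [e, abs_mul, abs_div _ (6 / a), abs_div _ (6 / a), abs_of_pos hb]
      refine mul_le_mul ?_ (div_le_div_of_nonneg_right (abs_norm_sub_norm_le _ _) hb.le)
        (by positivity) (by norm_num)
      rw [abs_of_nonneg (by positivity), div_le_iff₀ hb]
      linarith [h.D_le p, h.D_le p']
    have k3 := pow_le_pow_left₀ (abs_nonneg _) k2 2
    nlinarith [c_gam_nonneg a1 a3, c_gam_nonneg a2 a4]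

/-- smallness of the truncated moments -/
theorem g_le (h : CGd q a z m) {B N η : ℝ} (hB : ‖m‖⁻¹ ≤ B) (hη : 0 < η) {Y : ℂ} (hY : 0 < Y.im) :
    cg m N Y ≤ (16 * B ^ 2 + 64 * B ^ 4 + 4 / η) * ‖cV m Y‖ ^ 2 +
      128 * η * (1 + cTr N (ckk Y) ^ 8) := by
  rw [cV_eq hY]
  have t0 := ct_nonneg m N Y
  have k0 := cTr_nonneg N (ckk Y)
  have u0 := norm_nonneg (cU m Y)
  have hB0 : 0 ≤ B := le_trans (by positivity) hB
  unfold cg
  rcases le_total ‖cU m Y‖ (1 / 2) with hu | hu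
  · have h1 : ct m N Y ≤ 4 * B * ‖cU m Y‖ :=
      ((min_le_left _ _).trans (h.near hY.le hu)).trans
        (mul_le_mul_of_nonneg_right (by linarith) u0)
    have h2 := pow_le_pow_left₀ t0 h1 2
    have h3 := pow_le_pow_left₀ t0 h1 4
    have h4 : ‖cU m Y‖ ^ 2 ≤ 1 / 4 := by nlinarith
    have h5 := mul_le_mul_of_nonneg_left h4 (show 0 ≤ 256 * B ^ 4 * ‖cU m Y‖ ^ 2 by positivity)
    have h6 : 0 ≤ 4 / η * ‖cU m Y‖ ^ 2 := by positivity
    have h7 : 0 ≤ 128 * η * (1 + cTr N (ckk Y) ^ 8) := by positivity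
    nlinarith
  · have h1 : ct m N Y ≤ 1 + cTr N (ckk Y) := min_le_right _ _
    generalize cTr N (ckk Y) = k at *
    have h2 := pow_le_pow_left₀ t0 h1 2
    have h3 := pow_le_pow_left₀ t0 h1 4
    have h4 : (1 + k) ^ 2 ≤ (1 + k) ^ 4 := pow_le_pow_right₀ (by linarith) (by norm_num)
    have h5 : 2 * (1 + k) ^ 4 ≤ η * (1 + k) ^ 8 + 1 / η := by
      have : η * (1 + k) ^ 8 + 1 / η - 2 * (1 + k) ^ 4 = (η * (1 + k) ^ 4 - 1) ^ 2 / η := by
        field_simp; ring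
      have : 0 ≤ (η * (1 + k) ^ 4 - 1) ^ 2 / η := by positivity
      linarith
    have h6 := add_pow_le zero_le_one k0 8
    have h7 := mul_le_mul_of_nonneg_left h6 hη.le
    have h8 : 1 / η ≤ 4 / η * ‖cU m Y‖ ^ 2 := by
      have : 1 ≤ 4 * ‖cU m Y‖ ^ 2 := by nlinarith
      calc 1 / η ≤ (4 * ‖cU m Y‖ ^ 2) / η := div_le_div_of_nonneg_right this hη.le
        _ = _ := by ring
    have h9 : 0 ≤ (16 * B ^ 2 + 64 * B ^ 4) * ‖cU m Y‖ ^ 2 := by positivity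
    norm_num at h7
    nlinarith

theorem t_eq (h : CGd q a z m) {N : ℝ} {Y : ℂ} (hY : 0 < Y.im) (hN : ckk Y ≤ N) :
    ct m N Y = ‖Y - m‖ := by
  refine min_eq_left ?_
  rw [cTr_eq (ckk_nonneg hY) hN]
  linarith [norm_sub_le Y m, c_norm_le_kk hY, h.le_one]

theorem r_le (_h : CGd q a z m) {d : ℝ} (hd : 0 < d) (Y : Fin q → ℂ) (e : ℂ) (j : Fin q)
    (hA : d ≤ ‖∑ j, (Y j - m) - (m⁻¹ - m) + e‖) :
    ‖(Y j - m⁻¹) / (∑ j, (Y j - m) - (m⁻¹ - m) + e) - 1‖ ≤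
      (∑ i ∈ Finset.univ.erase j, ‖Y i - m‖ + ‖e‖) / d := by
  have n := norm_pos_iff.1 (hd.trans_le hA)
  rw [div_sub_one n, norm_div]
  refine div_le_div₀ (by positivity) ?_ hd hA
  rw [← Finset.add_sum_erase _ _ (Finset.mem_univ j)]
  have : Y j - m⁻¹ - (Y j - m + ∑ i ∈ Finset.univ.erase j, (Y i - m) - (m⁻¹ - m) + e) =
      -(∑ i ∈ Finset.univ.erase j, (Y i - m) + e) := by ring
  rw [this, norm_neg]
  exact (norm_add_le _ _).trans (add_le_add_left (norm_sum_le _ _) _)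

/-- the error of the two-copy recursion -/
theorem err2 (h : CGd q a z m) (hz : 0 < z.im) {z' : ℂ} (hz' : 0 < z'.im) {x s N : ℝ}
    (hx : x ≤ a / (2 * q)) (hzz : ‖z - z'‖ ≤ x) (hs : 0 ≤ s) (hsx : s ≤ x) (hN : 0 < N) (w : II)
    {P : Fin q → ℂ × ℂ} (hP : ∀ j, 0 < (P j).1.im ∧ 0 < (P j).2.im) :
    ‖cD m (Psi s z w fun j => (P j).1, Psi s z' w fun j => (P j).2) - m ^ 2 * ∑ j, cD m (P j)‖ ^ 2 ≤
      48 * q ^ 4 / (a / (2 * q)) ^ 4 * ∑ j, ∑ i ∈ Finset.univ.erase j,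
        ‖cD m (P j)‖ ^ 2 * (cg m N (P i).1 + cg m N (P i).2) +
      480 * q / (a / (2 * q)) ^ 4 * x ^ 2 * ∑ j, ‖cD m (P j)‖ ^ 2 +
      2 / (a / (2 * q)) ^ 4 * ‖z - z'‖ ^ 2 +
      (12 / a) ^ 2 / N ^ 8 * ∑ j, (cTr N (ckk (P j).1) ^ 8 + cTr N (ckk (P j).2) ^ 8) := by
  have ha := h.a_pos
  have hq := h.hq'
  obtain ⟨d, hd⟩ : ∃ d, d = a / (2 * q) := ⟨_, rfl⟩
  rw [← hd] at hx ⊢
  have d0 : 0 < d := by rw [hd]; positivity
  have d1 : d ≤ 1 / 4 := by rw [hd, div_le_iff₀ (by positivity)]; linarith [h.a_le]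
  have d2 : a / q = 2 * d := by rw [hd]; field_simp
  have s1 : 0 ≤ ∑ j, ∑ i ∈ Finset.univ.erase j,
      ‖cD m (P j)‖ ^ 2 * (cg m N (P i).1 + cg m N (P i).2) :=
    Finset.sum_nonneg fun j _ => Finset.sum_nonneg fun i _ =>
      mul_nonneg (sq_nonneg _) (add_nonneg (cg_nonneg _ _ _) (cg_nonneg _ _ _))
  have s2 : 0 ≤ ∑ j, ‖cD m (P j)‖ ^ 2 := Finset.sum_nonneg fun j _ => sq_nonneg _
  have s3 : 0 ≤ ∑ j, (cTr N (ckk (P j).1) ^ 8 + cTr N (ckk (P j).2) ^ 8) :=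
    Finset.sum_nonneg fun j _ => by positivity
  by_cases hg : ∀ j, ckk (P j).1 ≤ N ∧ ckk (P j).2 ≤ N
  · refine le_trans ?_ (le_add_of_nonneg_right (by positivity))
    have hW : 0 < (z - s * (w : ℝ) + ∑ j, (P j).1).im := by
      rw [c_W_im]; linarith [Finset.sum_nonneg fun j (_ : j ∈ Finset.univ) => (hP j).1.le]
    have hW' : 0 < (z' - s * (w : ℝ) + ∑ j, (P j).2).im := by
      rw [c_W_im]; linarith [Finset.sum_nonneg fun j (_ : j ∈ Finset.univ) => (hP j).2.le]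
    have e0 : ∀ j, cD m (P j) = cU m (P j).1 - cU m (P j).2 := fun j => by
      unfold cD; rw [cV_eq (hP j).1, cV_eq (hP j).2]
    have e1 : cD m (Psi s z w fun j => (P j).1, Psi s z' w fun j => (P j).2) =
        cU m (Psi s z w fun j => (P j).1) - cU m (Psi s z' w fun j => (P j).2) := by
      unfold cD
      rw [cV_eq (c_Psi_im s hz w fun j => (hP j).1), cV_eq (c_Psi_im s hz' w fun j => (hP j).2)]
    rw [e1]
    unfold Psi
    rw [h.diff (fun j => (hP j).1.le) (fun j => (hP j).2.le) hW hW', h.W_eq z, h.W_eq z']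
    simp only [← e0]
    have k0 := c_sw_le hs w
    have x0 : 0 ≤ x := hs.trans hsx
    have n1 : ‖z - z - s * (w : ℝ)‖ ≤ 2 * x := by rw [sub_self, zero_sub, norm_neg]; linarith
    have n2 : ‖z' - z - s * (w : ℝ)‖ ≤ 2 * x := by
      linarith [norm_sub_le (z' - z) (s * (w : ℝ)), norm_sub_rev z z']
    have i1 : 2 * d * ‖m‖⁻¹ ≤ (∑ j, ((P j).1 - m) - (m⁻¹ - m) + (z - z - s * (w : ℝ))).im := by
      have := h.part_im (Y := fun j => (P j).1) (fun j => (hP j).1.le) Finset.univ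
      rw [mul_div_right_comm, d2] at this
      rw [add_im]; simpa using this
    have i2 : d ≤ ‖∑ j, ((P j).2 - m) - (m⁻¹ - m) + (z' - z - s * (w : ℝ))‖ := by
      have a1 := h.part_im (Y := fun j => (P j).2) (fun j => (hP j).2.le) Finset.univ
      have a2 := h.dist'
      rw [d2] at a2
      have a3 : (z' - z - s * (w : ℝ)).im = -(z - z').im := by simp
      have a4 := (le_abs_self _).trans (Complex.abs_im_le_norm (z - z'))
      refine le_trans ?_ ((le_abs_self _).trans (Complex.abs_im_le_norm _))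
      rw [add_im, a3]; linarith
    have i3 : d ≤ ‖∑ j, ((P j).1 - m) - (m⁻¹ - m) + (z - z - s * (w : ℝ))‖ := by
      linarith [h.norm_ge i1 (by positivity)]
    have i4 := h.ratio' i1 (by positivity)
    have r1 := fun j => h.r_le d0 (fun j => (P j).1) _ j i3
    have r2 := fun j => h.r_le d0 (fun j => (P j).2) _ j i2
    generalize ∑ j, ((P j).1 - m) - (m⁻¹ - m) + (z - z - s * (w : ℝ)) = A at i4 r1
    generalize ∑ j, ((P j).2 - m) - (m⁻¹ - m) + (z' - z - s * (w : ℝ)) = A' at i2 r2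
    have r3 : ∀ j, ‖((P j).1 - m⁻¹) / A * (((P j).2 - m⁻¹) / A') - 1‖ ^ 2 ≤ 3 / d ^ 4 *
        (8 * q ^ 3 * ∑ i ∈ Finset.univ.erase j, (cg m N (P i).1 + cg m N (P i).2) + 80 * x ^ 2) := by
      intro j
      refine (c_rr d0 (by linarith) (r1 j) (r2 j)).trans
        (mul_le_mul_of_nonneg_left ?_ (by positivity))
      have b1 := c_T_bound h.hq j (fun i => ‖(P i).1 - m‖) (y := 2 * x) (by positivity) (by linarith)
        (by positivity) (add_le_add_right n1 _)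
      have b2 := c_T_bound h.hq j (fun i => ‖(P i).2 - m‖) (y := 2 * x) (by positivity) (by linarith)
        (by positivity) (add_le_add_right n2 _)
      have e : ∑ i ∈ Finset.univ.erase j, (cg m N (P i).1 + cg m N (P i).2) =
          ∑ i ∈ Finset.univ.erase j, (‖(P i).1 - m‖ ^ 2 + ‖(P i).1 - m‖ ^ 4) +
          ∑ i ∈ Finset.univ.erase j, (‖(P i).2 - m‖ ^ 2 + ‖(P i).2 - m‖ ^ 4) := by
        rw [← Finset.sum_add_distrib]
        refine Finset.sum_congr rfl fun i _ => ?_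
        unfold cg; rw [h.t_eq (hP i).1 (hg i).1, h.t_eq (hP i).2 (hg i).2]
      rw [e]; linarith
    have r4 : ‖(m⁻¹ - m) / A * ((z' - z) / A')‖ ≤ ‖z - z'‖ / d ^ 2 := by
      rw [norm_mul, norm_div (z' - z), norm_sub_rev z' z]
      calc _ ≤ 2 / (2 * d) * (‖z - z'‖ / d) := mul_le_mul i4
            (div_le_div_of_nonneg_left (norm_nonneg _) d0 i2) (by positivity) (by positivity)
        _ = _ := by field_simp
    obtain ⟨ρ, hρ⟩ : ∃ ρ : Fin q → ℂ, ∀ j, ρ j = ((P j).1 - m⁻¹) / A * (((P j).2 - m⁻¹) / A') :=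
      ⟨_, fun _ => rfl⟩
    simp only [← hρ] at r3 ⊢
    generalize (m⁻¹ - m) / A * ((z' - z) / A') = ω at r4
    have e2 : m ^ 2 * (∑ j, cD m (P j) * ρ j + ω) - m ^ 2 * ∑ j, cD m (P j) =
        m ^ 2 * (∑ j, cD m (P j) * (ρ j - 1) + ω) := by
      simp only [mul_sub, mul_one, Finset.sum_sub_distrib]; ring
    have k6 : ‖m ^ 2‖ ≤ 1 := by rw [norm_pow]; linarith [h.sq_half]
    have k7 : ‖m ^ 2 * (∑ j, cD m (P j) * (ρ j - 1) + ω)‖ ≤
        ∑ j, ‖cD m (P j)‖ * ‖ρ j - 1‖ + ‖z - z'‖ / d ^ 2 := by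
      rw [norm_mul]
      refine (mul_le_of_le_one_left (norm_nonneg _) k6).trans ((norm_add_le _ _).trans
        (add_le_add ((norm_sum_le _ _).trans (le_of_eq ?_)) r4))
      simp only [norm_mul]
    have k8 := c_sq_sum fun j => ‖cD m (P j)‖ * ‖ρ j - 1‖
    have k9 : ∑ j, (‖cD m (P j)‖ * ‖ρ j - 1‖) ^ 2 ≤ 3 / d ^ 4 * (8 * q ^ 3 *
        ∑ j, ∑ i ∈ Finset.univ.erase j, ‖cD m (P j)‖ ^ 2 * (cg m N (P i).1 + cg m N (P i).2) +
          80 * x ^ 2 * ∑ j, ‖cD m (P j)‖ ^ 2) := by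
      rw [Finset.mul_sum, Finset.mul_sum, ← Finset.sum_add_distrib, Finset.mul_sum]
      refine Finset.sum_le_sum fun j _ => ?_
      rw [mul_pow, ← Finset.mul_sum]
      refine (mul_le_mul_of_nonneg_left (r3 j) (sq_nonneg _)).trans (le_of_eq ?_)
      ring
    rw [e2]
    refine (pow_le_pow_left₀ (norm_nonneg _) k7 2).trans ?_
    have k10 := mul_le_mul_of_nonneg_left k9 h.qpos.le
    generalize ∑ j, ‖cD m (P j)‖ * ‖ρ j - 1‖ = S at k8 ⊢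
    have k11 : (S + ‖z - z'‖ / d ^ 2) ^ 2 ≤ 2 * S ^ 2 + 2 / d ^ 4 * ‖z - z'‖ ^ 2 := by
      have : 2 / d ^ 4 * ‖z - z'‖ ^ 2 = 2 * (‖z - z'‖ / d ^ 2) ^ 2 := by ring
      rw [this]; nlinarith [sq_nonneg (S - ‖z - z'‖ / d ^ 2)]
    refine k11.trans (add_le_add_left (le_trans
      (mul_le_mul_of_nonneg_left (k8.trans k10) zero_le_two) (le_of_eq ?_)) _)
    ring
  · refine le_trans ?_ (le_add_of_nonneg_left (by positivity))
    have b1 : ‖cD m (Psi s z w fun j => (P j).1, Psi s z' w fun j => (P j).2) -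
        m ^ 2 * ∑ j, cD m (P j)‖ ≤ 12 / a := by
      refine (norm_sub_le _ _).trans ?_
      have a1 : ‖∑ j, cD m (P j)‖ ≤ q * (6 / a) := by
        refine (norm_sum_le _ _).trans ((Finset.sum_le_sum fun j _ => h.D_le (P j)).trans ?_)
        simp
      have a2 := mul_le_mul_of_nonneg_left a1 (norm_nonneg (m ^ 2))
      have a3 := mul_le_mul_of_nonneg_right h.lam1 (show 0 ≤ 6 / a by positivity)
      have a4 := h.D_le (Psi s z w fun j => (P j).1, Psi s z' w fun j => (P j).2)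
      have : 12 / a = 6 / a + 6 / a := by ring
      rw [norm_mul]; linarith
    have b2 : N ^ 8 ≤ ∑ j, (cTr N (ckk (P j).1) ^ 8 + cTr N (ckk (P j).2) ^ 8) := by
      obtain ⟨j, hj⟩ := not_forall.1 hg
      refine le_trans ?_ (Finset.single_le_sum
        (f := fun j => cTr N (ckk (P j).1) ^ 8 + cTr N (ckk (P j).2) ^ 8)
        (fun j _ => by positivity) (Finset.mem_univ j))
      rcases not_and_or.1 hj with c | c
      · rw [cTr_top hN.le (not_le.1 c).le]; exact le_add_of_nonneg_right (by positivity)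
      · rw [cTr_top hN.le (not_le.1 c).le]; exact le_add_of_nonneg_left (by positivity)
    refine (pow_le_pow_left₀ (norm_nonneg _) b1 2).trans ?_
    refine le_trans (le_of_eq ?_) (mul_le_mul_of_nonneg_left b2 (by positivity))
    field_simp

end CGd

theorem c_min4 {a b c d : ℝ} (ha : 0 < a) (hb : 0 < b) (hc : 0 < c) (hd : 0 < d) :
    ∃ x, 0 < x ∧ x ≤ a ∧ x ≤ b ∧ x ≤ c ∧ x ≤ d :=
  ⟨min (min a b) (min c d), by positivity, (min_le_left _ _).trans (min_le_left _ _),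
    (min_le_left _ _).trans (min_le_right _ _), (min_le_right _ _).trans (min_le_left _ _),
    (min_le_right _ _).trans (min_le_right _ _)⟩

theorem c2_arith {D E τ K K₀ θ ζ ε x c1 c2 c3 c4 c5 c6 b Q N : ℝ} (hD : 0 ≤ D) (p1 : 0 ≤ c1)
    (p2 : 0 ≤ c2) (p4 : 0 ≤ c4) (p5 : 0 ≤ c5) (p6 : 0 ≤ c6) (hQ : 0 ≤ Q) (hN : 1 ≤ N)
    (hθ : 0 ≤ θ) (hθ1 : θ ≤ 1) (hx : 0 ≤ x) (hx1 : x ≤ 1) (_hK0 : 0 ≤ K₀)
    (k1 : D ≤ 4 * (b ^ 2 * θ) + c6 * (2 * b * θ) ^ 2 + c5 * E)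
    (k2 : E ≤ c1 * (Q ^ 2 * (D * τ)) + c2 * x ^ 2 * (Q * D) + c3 * ζ + c4 / N ^ 8 * (Q * K))
    (h1 : τ ≤ 1 / (4 * (c5 * c1 * Q ^ 2) + 1)) (h2 : x ≤ 1 / (4 * (c5 * c2 * Q) + 1))
    (h3 : K ≤ 2 * K₀) (h4 : 8 * (c5 * c4 * Q * K₀) / ε ≤ N) (hε : 0 < ε)
    (h5 : θ ≤ ε / (16 * b ^ 2 * (1 + c6) + 1)) : D ≤ 2 * (c5 * c3) * ζ + ε := by
  rw [le_div_iff₀ (by positivity)] at h1 h2 h5
  rw [div_le_iff₀ hε] at h4
  have a1 : c5 * c1 * Q ^ 2 * τ ≤ 1 / 4 := by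
    rcases le_total τ 0 with h | h
    · have := mul_nonpos_of_nonneg_of_nonpos (show 0 ≤ c5 * c1 * Q ^ 2 by positivity) h
      linarith
    · linarith
  have a2 : c5 * c2 * Q * x ^ 2 ≤ 1 / 4 := by
    have := mul_le_mul_of_nonneg_left (show x ^ 2 ≤ x by nlinarith)
      (show 0 ≤ c5 * c2 * Q by positivity)
    linarith
  have a3 : c5 * (c4 / N ^ 8 * (Q * K)) ≤ ε / 4 := by
    have b1 : N ≤ N ^ 8 := le_self_pow₀ hN (by norm_num)
    have b2 : c5 * (c4 / N ^ 8 * (Q * K)) = c5 * c4 * Q * K / N ^ 8 := by ring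
    rw [b2, div_le_iff₀ (by positivity)]
    have b3 := mul_le_mul_of_nonneg_left h3 (show 0 ≤ c5 * c4 * Q by positivity)
    have b4 := mul_le_mul_of_nonneg_right b1 hε.le
    linarith
  have a4 : 4 * (b ^ 2 * θ) + c6 * (2 * b * θ) ^ 2 ≤ ε / 4 := by
    have := mul_le_mul_of_nonneg_left (show θ ^ 2 ≤ θ by nlinarith)
      (show 0 ≤ c6 * b ^ 2 by positivity)
    nlinarith
  have a5 := mul_le_mul_of_nonneg_left k2 p5
  have a6 := mul_le_mul_of_nonneg_left a1 hD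
  have a7 := mul_le_mul_of_nonneg_left a2 hD
  nlinarith

theorem c_div_le {α β : Type} [MeasurableSpace α] [MeasurableSpace β] (μ : Measure α)
    (ν : Measure β) (f : α → ℝ) (g : β → ℝ) {b θ : ℝ} (hb : 0 < b)
    (h : |∫ x, f x / b ∂μ - ∫ x, g x / b ∂ν| ≤ θ) : |∫ x, f x ∂μ - ∫ x, g x ∂ν| ≤ b * θ := by
  rw [integral_div, integral_div, ← sub_div, abs_div, abs_of_pos hb, div_le_iff₀ hb] at h
  linarith

theorem stC2 : StC2 := by
  intro q κ M hq hκ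
  have hqr : (2 : ℝ) ≤ q := by exact_mod_cast hq
  obtain ⟨Λ, -, -, h0⟩ := stC0 q κ hq hκ
  obtain ⟨⟨u₀, T₀, hu, h1⟩, -⟩ := h0 M
  obtain ⟨p₀, Ct, hp, hCt, ht⟩ := c_tail q hq (M + 2 * q + 2)
  obtain ⟨a, ha⟩ : ∃ a, a = κ / (2 * √(q : ℝ)) := ⟨_, rfl⟩
  have ha0 : 0 < a := ha ▸ c_aa_pos hq hκ
  obtain ⟨B, hB⟩ : ∃ B : ℝ, B = M + 3 * q := ⟨_, rfl⟩
  obtain ⟨K₀, hK₀⟩ : ∃ K : ℝ, K = Ct * (|T₀| ^ 8 + 1) := ⟨_, rfl⟩
  obtain ⟨c1, hc1⟩ : ∃ c : ℝ, c = 48 * q ^ 4 / (a / (2 * q)) ^ 4 := ⟨_, rfl⟩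
  obtain ⟨c2, hc2⟩ : ∃ c : ℝ, c = 480 * q / (a / (2 * q)) ^ 4 := ⟨_, rfl⟩
  obtain ⟨c3, hc3⟩ : ∃ c : ℝ, c = 2 / (a / (2 * q)) ^ 4 := ⟨_, rfl⟩
  obtain ⟨c4, hc4⟩ : ∃ c : ℝ, c = (12 / a) ^ 2 := ⟨_, rfl⟩
  obtain ⟨c6, hc6⟩ : ∃ c : ℝ, c = 12 / a ^ 2 := ⟨_, rfl⟩
  have pK : 0 < K₀ := by rw [hK₀]; positivity
  have p1 : 0 ≤ c1 := by rw [hc1]; positivity
  have p2 : 0 ≤ c2 := by rw [hc2]; positivity
  have p4 : 0 ≤ c4 := by rw [hc4]; positivity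
  have p6 : 0 ≤ c6 := by rw [hc6]; positivity
  obtain ⟨τ, hτ⟩ : ∃ c : ℝ, c = 1 / (4 * ((12 + c6) * c1 * q ^ 2) + 1) := ⟨_, rfl⟩
  have pτ : 0 < τ := by rw [hτ]; positivity
  obtain ⟨η, hη⟩ : ∃ c : ℝ, c = τ / (512 * (1 + K₀)) := ⟨_, rfl⟩
  have pη : 0 < η := by rw [hη]; positivity
  obtain ⟨c7, hc7⟩ : ∃ c : ℝ, c = 16 * B ^ 2 + 64 * B ^ 4 + 4 / η := ⟨_, rfl⟩
  have p7 : 0 < c7 := by rw [hc7]; positivity
  obtain ⟨x, x0, x1, x2, x3, x4⟩ := c_min4 (show 0 < τ / (4 * c7) by positivity)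
    (show 0 < p₀ * u₀ ^ 2 by positivity) (show 0 < a / (2 * q) by positivity)
    (show 0 < 1 / (4 * ((12 + c6) * c2 * q) + 1) by positivity)
  refine ⟨x, 2 * ((12 + c6) * c3), x0, fun ε hε => ?_⟩
  obtain ⟨N, N1, N2⟩ : ∃ N : ℝ, 1 ≤ N ∧ 8 * ((12 + c6) * c4 * q * K₀) / ε ≤ N :=
    ⟨max 1 _, le_max_left _ _, le_max_right _ _⟩
  have N0 : 0 < N := by linarith
  obtain ⟨θ, θ0, θ1, θ2, θ3, -⟩ := c_min4 one_pos (show 0 < 1 / N ^ 8 by positivity)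
    (show 0 < ε / (16 * (6 / a) ^ 2 * (1 + c6) + 1) by positivity) one_pos
  rw [le_div_iff₀ (by positivity), mul_comm] at θ2
  refine ⟨7, θ, 64, θ0, fun z hz hM hb => ?_⟩
  have h : CGd q a z (m0 q z) := ha ▸ c_gd hq hκ hz.le hb
  have h2 := h1 z hz.le hM hb
  simp only [c_uu] at h2 ⊢
  generalize m0 q z = m at h h2 ⊢
  refine ⟨![fun p => (cD m p).re / (6 / a), fun p => (cD m p).im / (6 / a),
    fun p => ‖cD m p‖ ^ 2 / (6 / a) ^ 2, fun p => cG N p.1, fun p => cG N (-p.1⁻¹),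
    fun p => cG N p.2, fun p => cG N (-p.2⁻¹)], fun j => ?_, ?_⟩
  · fin_cases j
    · exact h.glip_lin Complex.re Complex.measurable_re Complex.abs_re_le_norm fun _ _ => rfl
    · exact h.glip_lin Complex.im Complex.measurable_im Complex.abs_im_le_norm fun _ _ => rfl
    · exact h.glip_sq
    · exact c_glip_hh1 N0
    · exact c_glip_kk1 N0
    · exact c_glip_hh2 N0
    · exact c_glip_kk2 N0
  intro z' s π _ μ _ hz' hzz hs hsx hμ hX1 hX2 hF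
  have hb6 : 0 < 6 / a := by positivity
  have hx1 : x ≤ 1 := x3.trans (by rw [div_le_one (by positivity)]; linarith [h.a_le])
  have hae := cP_ae (q := q) π μ hμ
  have mΨ : Measurable fun p : II × (Fin q → ℂ × ℂ) =>
      ((Psi s z p.1 fun j => (p.2 j).1, Psi s z' p.1 fun j => (p.2 j).2) : ℂ × ℂ) :=
    (c_meas_Psi s z measurable_fst).prodMk (c_meas_Psi s z' measurable_snd)
  have f0 : |∫ p, (cD m p).re / (6 / a) ∂μ - ∫ p, (cD m p).re / (6 / a) ∂T2 q π s z z' μ| ≤ θ := hF 0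
  have f1 : |∫ p, (cD m p).im / (6 / a) ∂μ - ∫ p, (cD m p).im / (6 / a) ∂T2 q π s z z' μ| ≤ θ := hF 1
  have f2 : |∫ p, ‖cD m p‖ ^ 2 / (6 / a) ^ 2 ∂μ -
    ∫ p, ‖cD m p‖ ^ 2 / (6 / a) ^ 2 ∂T2 q π s z z' μ| ≤ θ := hF 2
  have f3 : |∫ p, cG N p.1 ∂μ - ∫ p, cG N p.1 ∂T2 q π s z z' μ| ≤ θ := hF 3
  have f4 : |∫ p, cG N (-p.1⁻¹) ∂μ - ∫ p, cG N (-p.1⁻¹) ∂T2 q π s z z' μ| ≤ θ := hF 4
  have f5 : |∫ p, cG N p.2 ∂μ - ∫ p, cG N p.2 ∂T2 q π s z z' μ| ≤ θ := hF 5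
  have f6 : |∫ p, cG N (-p.2⁻¹) ∂μ - ∫ p, cG N (-p.2⁻¹) ∂T2 q π s z z' μ| ≤ θ := hF 6
  clear hF
  simp only [cG, div_pow] at f3 f4 f5 f6
  have N8 : 0 < N ^ 8 := by positivity
  have g0 := c_div_le _ _ _ _ hb6 f0
  have g1 := c_div_le _ _ _ _ hb6 f1
  have g2 := c_div_le _ _ _ _ (by positivity) f2
  have g3 := c_div_le _ _ _ _ N8 f3
  have g4 := c_div_le _ _ _ _ N8 f4
  have g5 := c_div_le _ _ _ _ N8 f5
  have g6 := c_div_le _ _ _ _ N8 f6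
  clear f0 f1 f2 f3 f4 f5 f6
  have bh : CBM fun x => cTr N (chh x) ^ 8 := ((cTr_bm N0.le).comp c_meas_hh).pow 8
  have bk : CBM fun x => cTr N (ckk x) ^ 8 := ((cTr_bm N0.le).comp c_meas_kk).pow 8
  rw [c_T2_int π s z z' μ h.D_bm.re.meas] at g0
  rw [c_T2_int π s z z' μ h.D_bm.im.meas] at g1
  rw [c_T2_int π s z z' μ (h.D_bm.norm.pow 2).meas] at g2
  rw [c_T2_int π s z z' μ (bh.comp measurable_fst).meas] at g3
  rw [c_T2_int π s z z' μ (bh.comp measurable_snd).meas] at g5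
  rw [c_T2_int π s z z' μ (bh.comp (φ := fun p : ℂ × ℂ => -p.1⁻¹) measurable_fst.inv.neg).meas] at g4
  rw [c_T2_int π s z z' μ (bh.comp (φ := fun p : ℂ × ℂ => -p.2⁻¹) measurable_snd.inv.neg).meas] at g6
  have e1 : ∫ p, ‖cU m p.1‖ ^ 2 ∂μ = ∫ p, ‖cV m p.1‖ ^ 2 ∂μ :=
    integral_congr_ae (hμ.mono fun p hp => by simp only [cV_eq hp.1])
  have e2 : ∫ p, ‖cU m p.2‖ ^ 2 ∂μ = ∫ p, ‖cV m p.2‖ ^ 2 ∂μ :=
    integral_congr_ae (hμ.mono fun p hp => by simp only [cV_eq hp.2])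
  have e3 : ∫ p, ‖cU m p.1 - cU m p.2‖ ^ 2 ∂μ = ∫ p, ‖cD m p‖ ^ 2 ∂μ :=
    integral_congr_ae (hμ.mono fun p hp => by simp only [cD, cV_eq hp.1, cV_eq hp.2])
  rw [e1] at hX1
  rw [e2] at hX2
  rw [e3]
  have zb := h.z_le hM
  have zb' : ‖z'‖ ≤ ‖z‖ + x := by linarith [norm_sub_norm_le z' z, norm_sub_rev z z']
  have tl : ∀ (Y : ℂ × ℂ → ℂ) (y : ℂ), Measurable Y → 0 < y.im → ‖y‖ ≤ ‖z‖ + x →
      (∀ᵐ p ∂μ, 0 < (Y p).im) → ∫ p, ‖cV m (Y p)‖ ^ 2 ∂μ ≤ x →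
      |∫ p, cTr N (chh (Y p)) ^ 8 ∂μ -
        ∫ p, cTr N (chh (Psi s y p.1 fun j => Y (p.2 j))) ^ 8 ∂cP q π μ| ≤ N ^ 8 * θ →
      |∫ p, cTr N (ckk (Y p)) ^ 8 ∂μ -
        ∫ p, cTr N (ckk (Psi s y p.1 fun j => Y (p.2 j))) ^ 8 ∂cP q π μ| ≤ N ^ 8 * θ →
      ∫ p, cTr N (ckk (Y p)) ^ 8 ∂μ ≤ K₀ ∧ ∫ p, cg m N (Y p) ∂μ ≤ τ / 2 := by
    intro Y y hY hy hy' hae' hX a1 a2
    have bv := (h.V_bm.comp hY).norm
    obtain ⟨-, k2⟩ := ht (ℂ × ℂ) π μ Y y s |T₀| N (N ^ 8 * θ) (fun p => u₀⁻¹ * ‖cV m (Y p)‖) hY hy hs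
      (by linarith) (abs_nonneg _) N0.le (by positivity) hae' (bv.cmul _)
      (fun x => by positivity) (hae'.mono fun p hp => c_bad hu hp (h2 _ hp))
      (c_bad_int μ _ hu (hX.trans x2)) (sub_le_iff_le_add'.1 (abs_le.1 a1).2)
      (sub_le_iff_le_add'.1 (abs_le.1 a2).2)
    have k3 : ∫ p, cTr N (ckk (Y p)) ^ 8 ∂μ ≤ K₀ :=
      k2.trans (hK₀ ▸ mul_le_mul_of_nonneg_left (add_le_add_right θ2 _) hCt.le)
    refine ⟨k3, ?_⟩
    have k4 : ∫ p, cg m N (Y p) ∂μ ≤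
        ∫ p, (c7 * ‖cV m (Y p)‖ ^ 2 + 128 * η * (1 + cTr N (ckk (Y p)) ^ 8)) ∂μ := by
      refine integral_mono_ae (((cg_bm m N0.le).comp hY).int _)
        ((((bv.pow 2).cmul _).add (((CBM.const _).add (bk.comp hY)).cmul _)).int _)
        (hae'.mono fun p hp => ?_)
      rw [hc7]
      exact h.g_le (hB ▸ h.inv_le hM) pη hp
    rw [integral_add (((bv.pow 2).cmul _).int _) ((((CBM.const _).add (bk.comp hY)).cmul _).int _),
      integral_const_mul, integral_const_mul,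
      integral_add ((CBM.const _).int _) ((bk.comp hY).int _)] at k4
    simp only [integral_const, probReal_univ, smul_eq_mul, one_mul] at k4
    have k5 : c7 * ∫ p, ‖cV m (Y p)‖ ^ 2 ∂μ ≤ τ / 4 := by
      refine (mul_le_mul_of_nonneg_left (hX.trans x1) p7.le).trans (le_of_eq ?_)
      field_simp
    have k6 : 128 * η * (1 + ∫ p, cTr N (ckk (Y p)) ^ 8 ∂μ) ≤ τ / 4 := by
      refine (mul_le_mul_of_nonneg_left (add_le_add_right k3 1) (by positivity)).trans (le_of_eq ?_)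
      rw [hη]; field_simp; norm_num
    refine k4.trans ((add_le_add k5 k6).trans (le_of_eq (by ring)))
  obtain ⟨t1, t2⟩ := tl Prod.fst z measurable_fst hz (by linarith) (hμ.mono fun p hp => hp.1) hX1 g3 g4
  obtain ⟨t3, t4⟩ := tl Prod.snd z' measurable_snd hz' zb' (hμ.mono fun p hp => hp.2) hX2 g5 g6
  have hFb := h.D_bm.comp mΨ
  have m1 : ‖∫ p, cD m p ∂μ - ∫ p, cD m (Psi s z p.1 fun j => (p.2 j).1,
      Psi s z' p.1 fun j => (p.2 j).2) ∂cP q π μ‖ ≤ 2 * (6 / a) * θ := by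
    refine (Complex.norm_le_abs_re_add_abs_im _).trans ?_
    have a1 : ∫ p, (cD m p).re ∂μ = (∫ p, cD m p ∂μ).re := integral_re (h.D_bm.int μ)
    have a2 : ∫ p, (cD m p).im ∂μ = (∫ p, cD m p ∂μ).im := integral_im (h.D_bm.int μ)
    have a3 : ∫ p, (cD m (Psi s z p.1 fun j => (p.2 j).1, Psi s z' p.1 fun j => (p.2 j).2)).re
        ∂cP q π μ = (∫ p, cD m (Psi s z p.1 fun j => (p.2 j).1,
          Psi s z' p.1 fun j => (p.2 j).2) ∂cP q π μ).re := integral_re (hFb.int _)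
    have a4 : ∫ p, (cD m (Psi s z p.1 fun j => (p.2 j).1, Psi s z' p.1 fun j => (p.2 j).2)).im
        ∂cP q π μ = (∫ p, cD m (Psi s z p.1 fun j => (p.2 j).1,
          Psi s z' p.1 fun j => (p.2 j).2) ∂cP q π μ).im := integral_im (hFb.int _)
    rw [sub_re, sub_im, ← a1, ← a2, ← a3, ← a4]
    exact (add_le_add g0 g1).trans (le_of_eq (by ring))
  have k1 := c_lin π μ h.D_bm hFb hq ha0 h.lam1 h.lam2 m1 (sub_le_iff_le_add'.1 (abs_le.1 g2).2)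
  rw [← hc6] at k1
  have bD := h.D_bm.norm.pow 2
  have bG : CBM fun p : ℂ × ℂ => cg m N p.1 + cg m N p.2 :=
    ((cg_bm m N0.le).comp measurable_fst).add ((cg_bm m N0.le).comp measurable_snd)
  have bK : CBM fun p : ℂ × ℂ => cTr N (ckk p.1) ^ 8 + cTr N (ckk p.2) ^ 8 :=
    (bk.comp measurable_fst).add (bk.comp measurable_snd)
  have b1 : CBM fun p : II × (Fin q → ℂ × ℂ) => c1 * ∑ j, ∑ i ∈ Finset.univ.erase j,
      ‖cD m (p.2 j)‖ ^ 2 * (cg m N (p.2 i).1 + cg m N (p.2 i).2) :=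
    (CBM.sum _ fun j => CBM.sum _ fun i => (bD.comp (c_meas_ev j)).mul (bG.comp (c_meas_ev i))).cmul _
  have b2 : CBM fun p : II × (Fin q → ℂ × ℂ) => c2 * x ^ 2 * ∑ j, ‖cD m (p.2 j)‖ ^ 2 :=
    (CBM.sum _ fun j => bD.comp (c_meas_ev j)).cmul _
  have b3 : CBM fun _ : II × (Fin q → ℂ × ℂ) => c3 * ‖z - z'‖ ^ 2 := CBM.const _
  have b4 : CBM fun p : II × (Fin q → ℂ × ℂ) => c4 / N ^ 8 *
      ∑ j, (cTr N (ckk (p.2 j).1) ^ 8 + cTr N (ckk (p.2 j).2) ^ 8) :=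
    (CBM.sum _ fun j => bK.comp (c_meas_ev j)).cmul _
  have k2 := integral_mono_of_nonneg (μ := cP q π μ)
    (f := fun p => ‖cD m (Psi s z p.1 fun j => (p.2 j).1, Psi s z' p.1 fun j => (p.2 j).2) -
      m ^ 2 * ∑ j, cD m (p.2 j)‖ ^ 2) (Eventually.of_forall fun p => sq_nonneg _)
    ((((b1.add b2).add b3).add b4).int _) (hae.mono fun p hp => by
      rw [hc1, hc2, hc3, hc4]; exact h.err2 hz hz' x3 hzz hs hsx N0 p.1 hp)
  rw [integral_add (((b1.add b2).add b3).int _) (b4.int _), integral_add ((b1.add b2).int _) (b3.int _),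
    integral_add (b1.int _) (b2.int _), integral_const_mul, integral_const_mul, integral_const_mul (c4 / N ^ 8),
    cP_sum π μ bD, cP_sum π μ bK] at k2
  simp only [integral_const, probReal_univ, smul_eq_mul, one_mul] at k2
  have hD0 : 0 ≤ ∫ p, ‖cD m p‖ ^ 2 ∂μ := integral_nonneg fun p => sq_nonneg _
  have k3 := mul_le_mul_of_nonneg_left (cP_off (q := q) π μ bD bG (mul_nonneg hD0
    (integral_nonneg fun p => add_nonneg (cg_nonneg _ _ _) (cg_nonneg _ _ _)))) p1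
  have k4 : ∫ p, (cg m N p.1 + cg m N p.2) ∂μ ≤ 1 / (4 * ((12 + c6) * c1 * q ^ 2) + 1) := by
    rw [integral_add (((cg_bm m N0.le).comp measurable_fst).int _)
      (((cg_bm m N0.le).comp measurable_snd).int _), ← hτ]
    exact (add_le_add t2 t4).trans (le_of_eq (by ring))
  have k5 : ∫ p, (cTr N (ckk p.1) ^ 8 + cTr N (ckk p.2) ^ 8) ∂μ ≤ 2 * K₀ := by
    rw [integral_add ((bk.comp measurable_fst).int _) ((bk.comp measurable_snd).int _)]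
    exact (add_le_add t1 t3).trans (le_of_eq (by ring))
  exact c2_arith hD0 p1 p2 p4 (by positivity) p6 (by positivity) N1 θ0.le θ1 x0.le hx1 pK.le k1
    (k2.trans (add_le_add_left (add_le_add_left (add_le_add_left k3 _) _) _)) k4 x4 k5 N2 hε θ3

end Crest.Agent.R166
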