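import Crest.Agent.R166.C.C2

/-!
# Row 166, block C: `stC0` (`C/Basic`), `stC1`, `stC3` (`C/C1`), `stC4` (`C/Tail`), `stC2` (`C/C2`)
-/

namespace Crest.Agent.R166

theorem stC : StC0 ∧ StC1 ∧ StC2 ∧ StC3 ∧ StC4 := ⟨stC0, stC1, stC2, stC3, stC4⟩

end Crest.Agent.R166
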