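import Crest.Agent.R166.C.Basic

/-!
# Row 166, block C: product-measure tools (helper9)
-/

set_option autoImplicit false

open MeasureTheory ProbabilityTheory Complex

noncomputable section

namespace Crest.Agent.R166

/-- bounded measurable functions -/
structure CBM {α 𝕜 : Type} [MeasurableSpace α] [RCLike 𝕜] (f : α → 𝕜) : Prop where
  meas : Measurable f
  bd : ∃ C : ℝ, ∀ x, ‖f x‖ ≤ C

namespace CBM
variable {α β 𝕜 : Type} [MeasurableSpace α] [MeasurableSpace β] [RCLike 𝕜] {f g : α → 𝕜}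

theorem int (h : CBM f) (μ : Measure α) [IsFiniteMeasure μ] : Integrable f μ := by
  obtain ⟨C, hC⟩ := h.bd
  exact Integrable.of_bound h.meas.aestronglyMeasurable C (Filter.Eventually.of_forall hC)

theorem const (c : 𝕜) : CBM fun _ : α => c := ⟨measurable_const, ‖c‖, fun _ => le_rfl⟩

theorem add (h : CBM f) (h' : CBM g) : CBM fun x => f x + g x := by
  obtain ⟨C, hC⟩ := h.bd; obtain ⟨C', hC'⟩ := h'.bd
  exact ⟨h.meas.add h'.meas, C + C', fun x => (norm_add_le _ _).trans (add_le_add (hC x) (hC' x))⟩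

theorem sub (h : CBM f) (h' : CBM g) : CBM fun x => f x - g x := by
  obtain ⟨C, hC⟩ := h.bd; obtain ⟨C', hC'⟩ := h'.bd
  exact ⟨h.meas.sub h'.meas, C + C', fun x => (norm_sub_le _ _).trans (add_le_add (hC x) (hC' x))⟩

theorem mul (h : CBM f) (h' : CBM g) : CBM fun x => f x * g x := by
  obtain ⟨C, hC⟩ := h.bd; obtain ⟨C', hC'⟩ := h'.bd
  refine ⟨h.meas.mul h'.meas, C * C', fun x => ?_⟩
  rw [norm_mul]
  exact mul_le_mul (hC x) (hC' x) (norm_nonneg _) ((norm_nonneg _).trans (hC x))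

theorem cmul (c : 𝕜) (h : CBM f) : CBM fun x => c * f x := (const c).mul h

theorem pow (h : CBM f) (n : ℕ) : CBM fun x => f x ^ n := by
  induction n with
  | zero => simpa using const (1 : 𝕜)
  | succ n ih => simpa only [pow_succ] using ih.mul h

theorem sum {ι : Type} (s : Finset ι) {F : ι → α → 𝕜} (h : ∀ i, CBM (F i)) :
    CBM fun x => ∑ i ∈ s, F i x := by
  classical
  induction s using Finset.induction_on with
  | empty => simpa using const (0 : 𝕜)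
  | insert i s hi ih => simpa only [Finset.sum_insert hi] using (h i).add ih

theorem comp (h : CBM f) {φ : β → α} (hφ : Measurable φ) : CBM fun x => f (φ x) := by
  obtain ⟨C, hC⟩ := h.bd
  exact ⟨h.meas.comp hφ, C, fun x => hC _⟩

theorem norm (h : CBM f) : CBM fun x => ‖f x‖ := by
  obtain ⟨C, hC⟩ := h.bd
  exact ⟨h.meas.norm, C, fun x => by simpa using hC x⟩

theorem re {f : α → ℂ} (h : CBM f) : CBM fun x => (f x).re := by
  obtain ⟨C, hC⟩ := h.bd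
  exact ⟨Complex.measurable_re.comp h.meas, C, fun x => (Complex.abs_re_le_norm _).trans (hC x)⟩

theorem im {f : α → ℂ} (h : CBM f) : CBM fun x => (f x).im := by
  obtain ⟨C, hC⟩ := h.bd
  exact ⟨Complex.measurable_im.comp h.meas, C, fun x => (Complex.abs_im_le_norm _).trans (hC x)⟩

end CBM

theorem c_cs {α : Type} [MeasurableSpace α] (μ : Measure α) [IsFiniteMeasure μ] {f g : α → ℝ}
    (hf : CBM f) (hg : CBM g) : (∫ x, f x * g x ∂μ) ^ 2 ≤ (∫ x, f x ^ 2 ∂μ) * ∫ x, g x ^ 2 ∂μ := by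
  have key : ∀ t : ℝ, 0 ≤ (∫ x, f x ^ 2 ∂μ) * (t * t) + (-2 * ∫ x, f x * g x ∂μ) * t +
      ∫ x, g x ^ 2 ∂μ := by
    intro t
    have h1 : 0 ≤ ∫ x, (t * f x - g x) ^ 2 ∂μ := integral_nonneg fun x => sq_nonneg _
    have h2 : ∀ x, (t * f x - g x) ^ 2 = (t * t) * f x ^ 2 + (-2 * t) * (f x * g x) + g x ^ 2 :=
      fun x => by ring
    simp_rw [h2] at h1
    rw [integral_add ((((hf.pow 2).cmul _).add ((hf.mul hg).cmul _)).int μ) ((hg.pow 2).int μ),
      integral_add (((hf.pow 2).cmul _).int μ) (((hf.mul hg).cmul _).int μ), integral_const_mul,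
      integral_const_mul] at h1
    linarith
  have h := discrim_le_zero key
  unfold discrim at h
  linarith

/-- the law of (potential, children) -/
abbrev cP (q : ℕ) (π : Measure II) {α : Type} [MeasurableSpace α] (μ : Measure α) :
    Measure (II × (Fin q → α)) := π.prod (Measure.pi fun _ : Fin q => μ)

section
variable {q : ℕ} (π : Measure II) [IsProbabilityMeasure π] {α : Type} [MeasurableSpace α]
  (μ : Measure α) [IsProbabilityMeasure μ]

theorem cP_mp (j : Fin q) : MeasurePreserving (fun p : II × (Fin q → α) => p.2 j) (cP q π μ) μ :=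
  (measurePreserving_eval (fun _ : Fin q => μ) j).comp measurePreserving_snd

theorem c_meas_ev (j : Fin q) : Measurable fun p : II × (Fin q → α) => p.2 j :=
  (measurable_pi_apply j).comp measurable_snd

theorem cP_ae {r : α → Prop} (h : ∀ᵐ x ∂μ, r x) : ∀ᵐ p ∂cP q π μ, ∀ j, r (p.2 j) :=
  ae_all_iff.2 fun j => (cP_mp π μ j).quasiMeasurePreserving.ae h

theorem cP_int {𝕜 : Type} [RCLike 𝕜] {f : α → 𝕜} (hf : Measurable f) (j : Fin q) :
    ∫ p, f (p.2 j) ∂cP q π μ = ∫ x, f x ∂μ := by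
  conv_rhs => rw [← (cP_mp π μ j).map_eq]
  rw [integral_map (c_meas_ev j).aemeasurable hf.aestronglyMeasurable]

theorem cP_pair {f g : α → ℝ} (hf : Measurable f) (hg : Measurable g) {i j : Fin q} (hij : i ≠ j) :
    ∫ p, f (p.2 i) * g (p.2 j) ∂cP q π μ = (∫ x, f x ∂μ) * ∫ x, g x ∂μ := by
  have h1 : IndepFun (fun ω : Fin q → α => ω i) (fun ω => ω j) (Measure.pi fun _ => μ) :=
    (iIndepFun_pi (X := fun _ => id) fun _ => aemeasurable_id).indepFun hij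
  have h2 := (h1.comp hf hg).integral_fun_mul_eq_mul_integral
    (hf.comp (measurable_pi_apply i)).aestronglyMeasurable
    (hg.comp (measurable_pi_apply j)).aestronglyMeasurable
  have h3 : ∀ (F : α → ℝ) (k : Fin q), Measurable F →
      ∫ ω, (F ∘ fun ω : Fin q → α => ω k) ω ∂(Measure.pi fun _ => μ) = ∫ x, F x ∂μ := by
    intro F k hF
    conv_rhs => rw [← (measurePreserving_eval (fun _ : Fin q => μ) k).map_eq]
    rw [integral_map (measurable_pi_apply k).aemeasurable hF.aestronglyMeasurable]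
    rfl
  rw [h3 f i hf, h3 g j hg] at h2
  rw [← h2]
  have h4 : MeasurePreserving (Prod.snd : II × (Fin q → α) → _) (cP q π μ)
      (Measure.pi fun _ => μ) := measurePreserving_snd
  conv_rhs => rw [← h4.map_eq]
  have h5 : Measurable fun ω : Fin q → α => f (ω i) * g (ω j) :=
    (hf.comp (measurable_pi_apply i)).mul (hg.comp (measurable_pi_apply j))
  exact (integral_map measurable_snd.aemeasurable h5.aestronglyMeasurable).symm

theorem cP_sum {f : α → ℝ} (hf : CBM f) : ∫ p, ∑ j, f (p.2 j) ∂cP q π μ = q * ∫ x, f x ∂μ := by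
  rw [integral_finsetSum _ fun j _ => (hf.comp (c_meas_ev j)).int _]
  simp only [cP_int π μ hf.meas]
  simp

/-- off-diagonal sums -/
theorem cP_off {f g : α → ℝ} (hf : CBM f) (hg : CBM g) (h0 : 0 ≤ (∫ x, f x ∂μ) * ∫ x, g x ∂μ) :
    ∫ p, ∑ j, ∑ i ∈ Finset.univ.erase j, f (p.2 j) * g (p.2 i) ∂cP q π μ ≤
      (q : ℝ) ^ 2 * ((∫ x, f x ∂μ) * ∫ x, g x ∂μ) := by
  rw [integral_finsetSum _ fun j _ => (CBM.sum _ fun i =>
    (hf.comp (c_meas_ev j)).mul (hg.comp (c_meas_ev i))).int _]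
  have h1 : ∀ j : Fin q, ∫ p, ∑ i ∈ Finset.univ.erase j, f (p.2 j) * g (p.2 i) ∂cP q π μ ≤
      q * ((∫ x, f x ∂μ) * ∫ x, g x ∂μ) := by
    intro j
    rw [integral_finsetSum _ fun i _ =>
      ((hf.comp (c_meas_ev j)).mul (hg.comp (c_meas_ev i))).int _]
    rw [Finset.sum_congr rfl fun i hi => cP_pair π μ hf.meas hg.meas (Finset.ne_of_mem_erase hi).symm,
      Finset.sum_const, nsmul_eq_mul]
    refine mul_le_mul_of_nonneg_right ?_ h0
    have : (Finset.univ.erase j).card ≤ q := by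
      simp
    exact_mod_cast this
  refine (Finset.sum_le_sum fun j _ => h1 j).trans (le_of_eq ?_)
  simp; ring

theorem cP_sq {g : α → ℝ} (hg : CBM g) :
    ∫ p, (∑ j, g (p.2 j)) ^ 2 ∂cP q π μ ≤ q * ∫ x, g x ^ 2 ∂μ + (q : ℝ) ^ 2 * (∫ x, g x ∂μ) ^ 2 := by
  have e : ∀ p : II × (Fin q → α), (∑ j, g (p.2 j)) ^ 2 =
      ∑ j, g (p.2 j) ^ 2 + ∑ j, ∑ i ∈ Finset.univ.erase j, g (p.2 j) * g (p.2 i) := by
    intro p
    rw [sq, Finset.sum_mul_sum, ← Finset.sum_add_distrib]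
    refine Finset.sum_congr rfl fun j _ => ?_
    rw [← Finset.add_sum_erase _ _ (Finset.mem_univ j), sq]
  simp_rw [e]
  rw [integral_add ((CBM.sum _ fun j => (hg.pow 2).comp (c_meas_ev j)).int _)
    ((CBM.sum _ fun j => CBM.sum _ fun i =>
      (hg.comp (c_meas_ev j)).mul (hg.comp (c_meas_ev i))).int _), cP_sum π μ (hg.pow 2)]
  have := cP_off (q := q) π μ hg hg (mul_self_nonneg _)
  rw [← sq] at this
  linarith

theorem cP_nsq {f : α → ℂ} (hf : CBM f) :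
    ∫ p, ‖∑ j, f (p.2 j)‖ ^ 2 ∂cP q π μ ≤
      q * ∫ x, ‖f x‖ ^ 2 ∂μ + (q : ℝ) ^ 2 * ‖∫ x, f x ∂μ‖ ^ 2 := by
  have e : ∀ w : ℂ, ‖w‖ ^ 2 = w.re ^ 2 + w.im ^ 2 := fun w => by
    rw [Complex.sq_norm, normSq_apply]; ring
  simp_rw [e, Complex.re_sum, Complex.im_sum]
  rw [integral_add (((CBM.sum _ fun j => hf.re.comp (c_meas_ev j)).pow 2).int _)
    (((CBM.sum _ fun j => hf.im.comp (c_meas_ev j)).pow 2).int _),
    integral_add ((hf.re.pow 2).int _) ((hf.im.pow 2).int _)]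
  have h1 := cP_sq (q := q) π μ hf.re
  have h2 := cP_sq (q := q) π μ hf.im
  have h3 : ∫ x, (f x).re ∂μ = (∫ x, f x ∂μ).re := integral_re (hf.int μ)
  have h4 : ∫ x, (f x).im ∂μ = (∫ x, f x ∂μ).im := integral_im (hf.int μ)
  rw [h3] at h1; rw [h4] at h2
  linarith

/-- the linear part of the recursion is a contraction -/
theorem c_lin {f : α → ℂ} {F : II × (Fin q → α) → ℂ} (hf : CBM f) (hF : CBM F) {lam : ℂ}
    {a θ₁ θ₂ : ℝ} (hq : 2 ≤ q) (ha : 0 < a) (h1 : q * ‖lam‖ ≤ 1) (h2 : a ≤ ‖1 - q * lam‖)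
    (h3 : ‖∫ x, f x ∂μ - ∫ p, F p ∂cP q π μ‖ ≤ θ₁)
    (h4 : ∫ x, ‖f x‖ ^ 2 ∂μ ≤ ∫ p, ‖F p‖ ^ 2 ∂cP q π μ + θ₂) :
    ∫ x, ‖f x‖ ^ 2 ∂μ ≤ 4 * θ₂ + 12 / a ^ 2 * θ₁ ^ 2 +
      (12 + 12 / a ^ 2) * ∫ p, ‖F p - lam * ∑ j, f (p.2 j)‖ ^ 2 ∂cP q π μ := by
  have hS : CBM fun p : II × (Fin q → α) => ∑ j, f (p.2 j) :=
    CBM.sum _ fun j => hf.comp (c_meas_ev j)
  have hE := hF.sub (hS.cmul lam)
  obtain ⟨X, hX⟩ : ∃ X, X = ∫ x, ‖f x‖ ^ 2 ∂μ := ⟨_, rfl⟩
  obtain ⟨b, hb⟩ : ∃ b, b = ∫ x, f x ∂μ := ⟨_, rfl⟩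
  obtain ⟨E, hEe⟩ : ∃ E, E = ∫ p, ‖F p - lam * ∑ j, f (p.2 j)‖ ^ 2 ∂cP q π μ := ⟨_, rfl⟩
  have hX0 : 0 ≤ X := hX ▸ integral_nonneg fun x => sq_nonneg _
  have hqr : (2 : ℝ) ≤ q := by exact_mod_cast hq
  -- the mean
  have m1 : ∫ p, (F p - lam * ∑ j, f (p.2 j)) ∂cP q π μ = ∫ p, F p ∂cP q π μ - lam * (q * b) := by
    rw [integral_sub (hF.int _) ((hS.cmul lam).int _), integral_const_mul,
      integral_finsetSum _ fun j _ => (hf.comp (c_meas_ev j)).int _]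
    simp only [cP_int π μ hf.meas, ← hb]
    simp
  have m2 : ‖∫ p, (F p - lam * ∑ j, f (p.2 j)) ∂cP q π μ‖ ^ 2 ≤ E := by
    have k1 := norm_integral_le_integral_norm (μ := cP q π μ) fun p => F p - lam * ∑ j, f (p.2 j)
    have k2 := c_cs (cP q π μ) hE.norm (CBM.const (1 : ℝ))
    simp only [mul_one, one_pow, integral_const, probReal_univ, smul_eq_mul] at k2
    rw [hEe]
    exact (pow_le_pow_left₀ (norm_nonneg _) k1 2).trans k2
  rw [m1] at m2
  rw [← hb] at h3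
  have m3 : a * ‖b‖ ≤ θ₁ + ‖∫ p, F p ∂cP q π μ - lam * (q * b)‖ := by
    have k1 : (1 - q * lam) * b = (b - ∫ p, F p ∂cP q π μ) + (∫ p, F p ∂cP q π μ - lam * (q * b)) := by
      ring
    have k2 := norm_add_le (b - ∫ p, F p ∂cP q π μ) (∫ p, F p ∂cP q π μ - lam * (q * b))
    rw [← k1, norm_mul] at k2
    have k3 := mul_le_mul_of_nonneg_right h2 (norm_nonneg b)
    linarith
  have m4 : ‖b‖ ^ 2 ≤ 2 / a ^ 2 * (θ₁ ^ 2 + E) := by
    rw [div_mul_eq_mul_div, le_div_iff₀ (by positivity)]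
    have k1 := pow_le_pow_left₀ (by positivity) m3 2
    nlinarith [sq_nonneg (θ₁ - ‖∫ p, F p ∂cP q π μ - lam * (q * b)‖)]
  -- the second moment
  have s1 : ∫ p, ‖F p‖ ^ 2 ∂cP q π μ ≤ ∫ p, (3 / 2 * ‖lam‖ ^ 2 * ‖∑ j, f (p.2 j)‖ ^ 2 +
      3 * ‖F p - lam * ∑ j, f (p.2 j)‖ ^ 2) ∂cP q π μ := by
    refine integral_mono ((hF.norm.pow 2).int _)
      ((((hS.norm.pow 2).cmul _).add ((hE.norm.pow 2).cmul _)).int _) fun p => ?_
    have k1 := norm_add_le (lam * ∑ j, f (p.2 j)) (F p - lam * ∑ j, f (p.2 j))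
    rw [add_sub_cancel, norm_mul] at k1
    have k2 := pow_le_pow_left₀ (norm_nonneg _) k1 2
    nlinarith [sq_nonneg (‖lam‖ * ‖∑ j, f (p.2 j)‖ - 2 * ‖F p - lam * ∑ j, f (p.2 j)‖)]
  rw [integral_add (((hS.norm.pow 2).cmul _).int _) (((hE.norm.pow 2).cmul _).int _),
    integral_const_mul, integral_const_mul, ← hEe] at s1
  have s2 := cP_nsq (q := q) π μ hf
  rw [← hX, ← hb] at s2
  have s3 := mul_le_mul_of_nonneg_left s2 (show 0 ≤ 3 / 2 * ‖lam‖ ^ 2 by positivity)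
  have s4 : (q * ‖lam‖) ^ 2 ≤ 1 := pow_le_one₀ (by positivity) h1
  have s5 : q * ‖lam‖ ^ 2 ≤ 1 / 2 := by nlinarith [sq_nonneg ‖lam‖, norm_nonneg lam]
  have s6 := mul_le_mul_of_nonneg_right s4 (sq_nonneg ‖b‖)
  have s7 := mul_le_mul_of_nonneg_right s5 hX0
  rw [← hX] at h4 ⊢
  rw [← hEe]
  have e : 4 * θ₂ + 12 / a ^ 2 * θ₁ ^ 2 + (12 + 12 / a ^ 2) * E =
      4 * θ₂ + 6 * (2 / a ^ 2 * (θ₁ ^ 2 + E)) + 12 * E := by ring
  rw [e]
  nlinarith

end

/-! ## the recursion map -/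

theorem c_meas_Psi {q : ℕ} (s : ℝ) (z : ℂ) {α : Type} [MeasurableSpace α] {Y : α → ℂ}
    (hY : Measurable Y) : Measurable fun p : II × (Fin q → α) => Psi s z p.1 fun j => Y (p.2 j) := by
  unfold Psi
  refine Measurable.neg (Measurable.inv (Measurable.add (Measurable.sub measurable_const
    (Measurable.const_mul ?_ _)) (Finset.measurable_sum _ fun j _ => hY.comp (c_meas_ev j))))
  exact Complex.measurable_ofReal.comp (measurable_subtype_coe.comp measurable_fst)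

theorem c_W_im {q : ℕ} (s : ℝ) (z : ℂ) (w : II) (Y : Fin q → ℂ) :
    (z - s * (w : ℝ) + ∑ j, Y j).im = z.im + ∑ j, (Y j).im := by
  simp [Complex.im_sum]

theorem c_Psi_im {q : ℕ} (s : ℝ) {z : ℂ} (hz : 0 < z.im) (w : II) {Y : Fin q → ℂ}
    (hY : ∀ j, 0 < (Y j).im) : 0 < (Psi s z w Y).im := by
  have h1 : 0 < (z - s * (w : ℝ) + ∑ j, Y j).im := by
    rw [c_W_im]; linarith [Finset.sum_nonneg fun j (_ : j ∈ Finset.univ) => (hY j).le]
  unfold Psi
  rw [neg_im, Complex.inv_im, neg_div, neg_neg]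
  exact div_pos h1 (normSq_pos.2 fun h => by rw [h] at h1; simp at h1)

theorem c_sw_le {s : ℝ} (hs : 0 ≤ s) (w : II) : ‖(s : ℂ) * ((w : ℝ) : ℂ)‖ ≤ s := by
  rw [norm_mul, Complex.norm_real, Complex.norm_real, Real.norm_eq_abs, Real.norm_eq_abs,
    abs_of_nonneg hs]
  have : |(w : ℝ)| ≤ 1 := abs_le.2 w.2
  nlinarith

open Classical in
/-- the Koenigs coordinate, cut off outside the upper half plane -/
def cV (m Y : ℂ) : ℂ := if 0 < Y.im then cU m Y else 0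

theorem c_meas_U (m : ℂ) : Measurable (cU m) := by
  unfold cU
  exact (measurable_id.sub_const _).div (measurable_id.sub_const _)

theorem cV_eq {m Y : ℂ} (h : 0 < Y.im) : cV m Y = cU m Y := if_pos h

theorem CGd.V_le {q : ℕ} {a : ℝ} {z m : ℂ} (h : CGd q a z m) (Y : ℂ) : ‖cV m Y‖ ≤ 3 / a := by
  unfold cV; split_ifs with hY
  · exact h.U_le hY.le
  · have := h.a_pos
    rw [norm_zero]; positivity

theorem CGd.V_bm {q : ℕ} {a : ℝ} {z m : ℂ} (h : CGd q a z m) : CBM (cV m) :=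
  ⟨Measurable.ite (measurableSet_lt measurable_const Complex.measurable_im) (c_meas_U m)
    measurable_const, 3 / a, h.V_le⟩

theorem CGd.lam1 {q : ℕ} {a : ℝ} {z m : ℂ} (h : CGd q a z m) : q * ‖m ^ 2‖ ≤ 1 := by
  rw [norm_pow]; exact h.sq

theorem CGd.lam2 {q : ℕ} {a : ℝ} {z m : ℂ} (h : CGd q a z m) : a ≤ ‖1 - q * m ^ 2‖ := by
  rw [pow_two]; exact h.one_sub h

/-- KEY: `uu (Ψ) = m² u(S)`, `u(S) = S / (S - c)`, written with `W = z' - s w + ∑ Y` -/
theorem CGd.key {q : ℕ} {a : ℝ} {z m : ℂ} (h : CGd q a z m) {W : ℂ} (hW : 0 < W.im) :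
    cU m (-W⁻¹) = m ^ 2 * (1 + (m⁻¹ - m) / (W + m)) := by
  have h1 : W ≠ 0 := by rintro rfl; simp at hW
  have h2 : W + m ≠ 0 := by
    intro e
    have := congrArg Complex.im e
    rw [add_im, zero_im] at this
    linarith [h.im_pos]
  have h3 := h.ne
  have h4 : -W⁻¹ - m⁻¹ ≠ 0 := by
    have : -W⁻¹ - m⁻¹ = -(W + m) / (W * m) := by field_simp; ring
    rw [this]; exact div_ne_zero (neg_ne_zero.2 h2) (mul_ne_zero h1 h3)
  unfold cU
  rw [div_eq_iff h4]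
  field_simp
  ring

end Crest.Agent.R166
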