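import Crest.Agent.R166.C.C1

/-!
# Row 166, block C: truncated moments, `StC4` (helper9)
-/

set_option autoImplicit false

open MeasureTheory ProbabilityTheory Complex Filter

noncomputable section

namespace Crest.Agent.R166

/-- clamp to `[0, N]` -/
def cTr (N x : ℝ) : ℝ := max 0 (min x N)

def chh (Y : ℂ) : ℝ := Y.im⁻¹

def ckk (Y : ℂ) : ℝ := chh (-Y⁻¹)

theorem cTr_nonneg (N x : ℝ) : 0 ≤ cTr N x := le_max_left _ _

theorem cTr_le {N : ℝ} (hN : 0 ≤ N) (x : ℝ) : cTr N x ≤ N := max_le hN (min_le_right _ _)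

theorem cTr_le' (N : ℝ) {x T : ℝ} (hT : 0 ≤ T) (hx : x ≤ T) : cTr N x ≤ T :=
  max_le hT ((min_le_left _ _).trans hx)

theorem cTr_eq {N x : ℝ} (h0 : 0 ≤ x) (hx : x ≤ N) : cTr N x = x := by
  unfold cTr; rw [min_eq_left hx, max_eq_right h0]

theorem cTr_top {N x : ℝ} (h0 : 0 ≤ N) (hx : N ≤ x) : cTr N x = N := by
  unfold cTr; rw [min_eq_right hx, max_eq_right h0]

theorem cTr_mul {N C x y : ℝ} (hN : 0 ≤ N) (hC : 1 ≤ C) (hy : 0 ≤ y) (h : x ≤ C * y) :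
    cTr N x ≤ C * cTr N y := by
  rcases le_total y N with h1 | h1
  · rw [cTr_eq hy h1]; exact cTr_le' N (by positivity) h
  · rw [cTr_top hN h1]; nlinarith [cTr_le hN x]

theorem c_meas_Tr (N : ℝ) : Measurable (cTr N) :=
  measurable_const.max (measurable_id.min measurable_const)

theorem c_meas_hh : Measurable chh := Complex.measurable_im.inv

theorem c_meas_kk : Measurable ckk := c_meas_hh.comp measurable_inv.neg

theorem cTr_bm {N : ℝ} (hN : 0 ≤ N) : CBM (cTr N) :=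
  ⟨c_meas_Tr N, N, fun x => by rw [Real.norm_of_nonneg (cTr_nonneg N x)]; exact cTr_le hN x⟩

theorem c_neg_inv_im (Y : ℂ) : (-Y⁻¹).im = Y.im / ‖Y‖ ^ 2 := by
  rw [neg_im, Complex.inv_im, neg_div, neg_neg, Complex.normSq_eq_norm_sq]

theorem ckk_eq (Y : ℂ) : ckk Y = ‖Y‖ ^ 2 / Y.im := by
  unfold ckk chh; rw [c_neg_inv_im, inv_div]

theorem c_hyp_eq (Y : ℂ) : hyp Y = chh Y + ckk Y := by
  rw [ckk_eq]; unfold hyp chh; ring

theorem chh_pos {Y : ℂ} (h : 0 < Y.im) : 0 < chh Y := inv_pos.2 h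

theorem ckk_nonneg {Y : ℂ} (h : 0 < Y.im) : 0 ≤ ckk Y := by rw [ckk_eq]; positivity

theorem c_norm_le_kk {Y : ℂ} (h : 0 < Y.im) : ‖Y‖ ≤ ckk Y := by
  rw [ckk_eq, le_div_iff₀ h]
  have h1 : Y.im ≤ ‖Y‖ := (le_abs_self _).trans (Complex.abs_im_le_norm Y)
  nlinarith [norm_nonneg Y]

theorem c_rec_kk {q : ℕ} (s : ℝ) {z : ℂ} (hz : 0 < z.im) (w : II) {Y : Fin q → ℂ}
    (hY : ∀ j, 0 < (Y j).im) (j : Fin q) : ckk (Psi s z w Y) ≤ chh (Y j) := by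
  unfold ckk Psi chh
  rw [inv_neg, inv_inv, neg_neg, c_W_im]
  refine inv_anti₀ (hY j) ?_
  linarith [Finset.single_le_sum (f := fun j => (Y j).im) (fun j _ => (hY j).le) (Finset.mem_univ j)]

theorem c_rec_hh {q : ℕ} (hq : 2 ≤ q) {s R : ℝ} {z : ℂ} (hz : 0 < z.im) (hs : 0 ≤ s)
    (hR : ‖z‖ + s ≤ R) (w : II) {Y : Fin q → ℂ} (hY : ∀ j, 0 < (Y j).im) :
    (∀ j, chh (Psi s z w Y) ≤ (2 * R ^ 2 + 2 * q) * chh (Y j)) ∨
      ∃ j, chh (Psi s z w Y) ≤ (2 * R ^ 2 + 2 * q) * ckk (Y j) := by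
  have : Nonempty (Fin q) := ⟨⟨0, by omega⟩⟩
  obtain ⟨k, -, hk⟩ := Finset.exists_max_image Finset.univ (fun j => ckk (Y j)) Finset.univ_nonempty
  have e1 : chh (Psi s z w Y) = ckk (z - s * (w : ℝ) + ∑ j, Y j) := rfl
  have e2 : ckk (Psi s z w Y) = chh (z - s * (w : ℝ) + ∑ j, Y j) := by
    unfold ckk Psi; rw [inv_neg, inv_inv, neg_neg]
  have h0 := c_rec_kk s hz w hY
  rw [e2] at h0
  rw [e1]
  have hS : 0 ≤ ∑ j, (Y j).im := Finset.sum_nonneg fun j _ => (hY j).le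
  have h1 := c_W_im s z w Y
  have h2 : ‖z - s * (w : ℝ) + ∑ j, Y j‖ ≤ R + ∑ j, ‖Y j‖ := by
    linarith [norm_add_le (z - s * (w : ℝ)) (∑ j, Y j), norm_sub_le z (s * (w : ℝ)), c_sw_le hs w,
      norm_sum_le Finset.univ Y]
  have h3 := c_sq_sum fun j => ‖Y j‖
  have hk0 := ckk_nonneg (hY k)
  have h4 : ∑ j, ‖Y j‖ ^ 2 ≤ ckk (Y k) * ∑ j, (Y j).im := by
    rw [Finset.mul_sum]
    refine Finset.sum_le_sum fun j _ => ?_
    have := hk j (Finset.mem_univ j)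
    rwa [ckk_eq (Y j), div_le_iff₀ (hY j)] at this
  generalize z - s * (w : ℝ) + ∑ j, Y j = W at h0 h1 h2 ⊢
  have hW : 0 < W.im := by linarith
  have hq0 : (0 : ℝ) ≤ q := by positivity
  have h5 : ckk W ≤ 2 * R ^ 2 * chh W + 2 * q * ckk (Y k) := by
    rw [ckk_eq W, div_le_iff₀ hW]
    have e : chh W * W.im = 1 := inv_mul_cancel₀ hW.ne'
    have a1 := pow_le_pow_left₀ (norm_nonneg _) h2 2
    have a2 := mul_le_mul_of_nonneg_left h4 hq0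
    have a3 : q * (ckk (Y k) * ∑ j, (Y j).im) ≤ q * (ckk (Y k) * W.im) :=
      mul_le_mul_of_nonneg_left (mul_le_mul_of_nonneg_left (by linarith) hk0) hq0
    have a4 : (2 * R ^ 2 * chh W + 2 * q * ckk (Y k)) * W.im =
        2 * R ^ 2 * (chh W * W.im) + 2 * (q * (ckk (Y k) * W.im)) := by ring
    rw [a4, e]
    nlinarith [sq_nonneg (R - ∑ j, ‖Y j‖)]
  rcases le_total (chh W) (ckk (Y k)) with h6 | h6
  · refine Or.inr ⟨k, ?_⟩
    nlinarith [mul_le_mul_of_nonneg_left h6 (sq_nonneg R)]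
  · refine Or.inl fun j => ?_
    have := mul_le_mul_of_nonneg_left (h0 j) (show 0 ≤ 2 * R ^ 2 + 2 * q by positivity)
    nlinarith [mul_le_mul_of_nonneg_left h6 hq0]

theorem c_tail_arith {H K H₁ T θ p B Q G : ℝ} (hB : 1 ≤ B) (hQ : 0 ≤ Q) (hH : 0 ≤ H) (h1 : 0 ≤ H₁)
    (hθ : 0 ≤ θ) (hp : p ≤ 1 / (4 * B * (Q + 1))) (k1 : H ≤ B * (H₁ * H₁ + Q * K) + θ)
    (k2 : K ≤ H₁ * H₁ + θ) (k3 : H₁ ≤ T + G) (k4 : G ^ 2 ≤ H * p) :
    H ≤ 4 * B * (Q + 1) * (T ^ 2 + θ) ∧ K ≤ 4 * B * (Q + 1) * (T ^ 2 + θ) := by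
  have a1 : H₁ * H₁ ≤ 2 * T ^ 2 + 2 * (H * p) := by
    nlinarith [mul_le_mul k3 k3 h1 (h1.trans k3), sq_nonneg (T - G)]
  rw [le_div_iff₀ (by positivity)] at hp
  have a2 := mul_le_mul_of_nonneg_left hp hH
  have a3 : B * (Q * K) ≤ B * (Q * (H₁ * H₁ + θ)) :=
    mul_le_mul_of_nonneg_left (mul_le_mul_of_nonneg_left k2 hQ) (by linarith)
  have a4 := mul_le_mul_of_nonneg_left a1 (show 0 ≤ B * (Q + 1) by positivity)
  have a5 : 1 * θ ≤ B * θ := mul_le_mul_of_nonneg_right hB hθ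
  have a6 : 0 ≤ B * Q * θ := by positivity
  have b1 : H ≤ 4 * B * (Q + 1) * (T ^ 2 + θ) := by nlinarith
  refine ⟨b1, ?_⟩
  have a7 : H * p ≤ T ^ 2 + θ := by
    by_contra hc
    push Not at hc
    have := mul_lt_mul_of_pos_left hc (show 0 < 4 * B * (Q + 1) by positivity)
    nlinarith
  have a8 : 1 * (T ^ 2 + θ) ≤ B * (Q + 1) * (T ^ 2 + θ) :=
    mul_le_mul_of_nonneg_right (by nlinarith) (by positivity)
  nlinarith

/-- truncated moments of approximate fixed points -/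
theorem c_tail (q : ℕ) (hq : 2 ≤ q) (R : ℝ) : ∃ p₀ C : ℝ, 0 < p₀ ∧ 0 < C ∧
    ∀ (α : Type) [MeasurableSpace α] (π : Measure II) [IsProbabilityMeasure π] (μ : Measure α)
      [IsProbabilityMeasure μ] (Y : α → ℂ) (z : ℂ) (s T N θ : ℝ) (v : α → ℝ), Measurable Y →
      0 < z.im → 0 ≤ s → ‖z‖ + s ≤ R → 0 ≤ T → 0 ≤ N → 0 ≤ θ → (∀ᵐ x ∂μ, 0 < (Y x).im) → CBM v →
      (∀ x, 0 ≤ v x) → (∀ᵐ x ∂μ, T < chh (Y x) → 1 ≤ v x) → ∫ x, v x ^ 2 ∂μ ≤ p₀ →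
      ∫ x, cTr N (chh (Y x)) ^ 8 ∂μ ≤
        ∫ p, cTr N (chh (Psi s z p.1 fun j => Y (p.2 j))) ^ 8 ∂cP q π μ + θ →
      ∫ x, cTr N (ckk (Y x)) ^ 8 ∂μ ≤
        ∫ p, cTr N (ckk (Psi s z p.1 fun j => Y (p.2 j))) ^ 8 ∂cP q π μ + θ →
      ∫ x, cTr N (chh (Y x)) ^ 8 ∂μ ≤ C * (T ^ 8 + θ) ∧
        ∫ x, cTr N (ckk (Y x)) ^ 8 ∂μ ≤ C * (T ^ 8 + θ) := by
  have hqr : (2 : ℝ) ≤ q := by exact_mod_cast hq
  obtain ⟨C₀, hC₀⟩ : ∃ C₀ : ℝ, C₀ = 2 * R ^ 2 + 2 * q := ⟨_, rfl⟩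
  have hC1 : 1 ≤ C₀ := by rw [hC₀]; nlinarith [sq_nonneg R]
  have hB : 1 ≤ C₀ ^ 8 := one_le_pow₀ hC1
  refine ⟨1 / (4 * C₀ ^ 8 * (q + 1)), 4 * C₀ ^ 8 * (q + 1), by positivity, by positivity, ?_⟩
  intro α _ π _ μ _ Y z s T N θ v hY hz hs hR hT hN hθ hae hv hv0 hv1 hp h1 h2
  obtain ⟨j0, j1, hj⟩ : ∃ j0 j1 : Fin q, j0 ≠ j1 :=
    ⟨⟨0, by omega⟩, ⟨1, by omega⟩, by simp [Fin.ext_iff]⟩
  have bh : CBM fun x => cTr N (chh (Y x)) := (cTr_bm hN).comp (c_meas_hh.comp hY)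
  have bk : CBM fun x => cTr N (ckk (Y x)) := (cTr_bm hN).comp (c_meas_kk.comp hY)
  have hP := cP_ae (q := q) π μ hae
  have bp : CBM fun p : II × (Fin q → α) =>
      cTr N (chh (Y (p.2 j0))) ^ 4 * cTr N (chh (Y (p.2 j1))) ^ 4 :=
    ((bh.pow 4).comp (c_meas_ev j0)).mul ((bh.pow 4).comp (c_meas_ev j1))
  have bs : CBM fun p : II × (Fin q → α) => ∑ j, cTr N (ckk (Y (p.2 j))) ^ 8 :=
    CBM.sum _ fun j => (bk.pow 8).comp (c_meas_ev j)
  have pr := cP_pair (q := q) π μ (bh.pow 4).meas (bh.pow 4).meas hj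
  have two : ∀ {x y₀ y₁ C : ℝ}, 1 ≤ C → 0 ≤ y₀ → 0 ≤ y₁ → x ≤ C * y₀ → x ≤ C * y₁ →
      cTr N x ^ 8 ≤ C ^ 8 * (cTr N y₀ ^ 4 * cTr N y₁ ^ 4) := by
    intro x y₀ y₁ C hC a0 a1 a2 a3
    have b0 := pow_le_pow_left₀ (cTr_nonneg _ _) (cTr_mul hN hC a0 a2) 4
    have b1 := pow_le_pow_left₀ (cTr_nonneg _ _) (cTr_mul hN hC a1 a3) 4
    have b2 := cTr_nonneg N x
    have b3 := mul_le_mul b0 b1 (by positivity) ((by positivity : 0 ≤ cTr N x ^ 4).trans b0)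
    calc cTr N x ^ 8 = cTr N x ^ 4 * cTr N x ^ 4 := by ring
      _ ≤ _ := b3
      _ = _ := by ring
  have k1 : ∫ p, cTr N (chh (Psi s z p.1 fun j => Y (p.2 j))) ^ 8 ∂cP q π μ ≤
      ∫ p, C₀ ^ 8 * (cTr N (chh (Y (p.2 j0))) ^ 4 * cTr N (chh (Y (p.2 j1))) ^ 4 +
        ∑ j, cTr N (ckk (Y (p.2 j))) ^ 8) ∂cP q π μ := by
    refine integral_mono_of_nonneg (Eventually.of_forall fun p => by positivity)
      (((bp.add bs).cmul _).int _) (hP.mono fun p hp => ?_)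
    have a0 : 0 ≤ ∑ j, cTr N (ckk (Y (p.2 j))) ^ 8 := Finset.sum_nonneg fun j _ => by positivity
    have a1 : 0 ≤ cTr N (chh (Y (p.2 j0))) ^ 4 * cTr N (chh (Y (p.2 j1))) ^ 4 := by positivity
    rcases c_rec_hh hq hz hs hR p.1 hp with h | ⟨j, h⟩
    · rw [← hC₀] at h
      exact (two hC1 (chh_pos (hp j0)).le (chh_pos (hp j1)).le (h j0) (h j1)).trans
        (mul_le_mul_of_nonneg_left (le_add_of_nonneg_right a0) (by positivity))
    · rw [← hC₀] at h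
      refine (pow_le_pow_left₀ (cTr_nonneg _ _) (cTr_mul hN hC1 (ckk_nonneg (hp j)) h) 8).trans ?_
      rw [mul_pow]
      refine mul_le_mul_of_nonneg_left (le_trans ?_ (le_add_of_nonneg_left a1)) (by positivity)
      exact Finset.single_le_sum (f := fun j => cTr N (ckk (Y (p.2 j))) ^ 8)
        (fun j _ => by positivity) (Finset.mem_univ j)
  rw [integral_const_mul, integral_add (bp.int _) (bs.int _), pr, cP_sum π μ (bk.pow 8)] at k1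
  have k2 : ∫ p, cTr N (ckk (Psi s z p.1 fun j => Y (p.2 j))) ^ 8 ∂cP q π μ ≤
      ∫ p, cTr N (chh (Y (p.2 j0))) ^ 4 * cTr N (chh (Y (p.2 j1))) ^ 4 ∂cP q π μ := by
    refine integral_mono_of_nonneg (Eventually.of_forall fun p => by positivity)
      (bp.int _) (hP.mono fun p hp => ?_)
    have := two le_rfl (chh_pos (hp j0)).le (chh_pos (hp j1)).le
      ((c_rec_kk s hz p.1 hp j0).trans_eq (one_mul _).symm)
      ((c_rec_kk s hz p.1 hp j1).trans_eq (one_mul _).symm)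
    rwa [one_pow, one_mul] at this
  rw [pr] at k2
  have k3 : ∫ x, cTr N (chh (Y x)) ^ 4 ∂μ ≤ ∫ x, (T ^ 4 + cTr N (chh (Y x)) ^ 4 * v x) ∂μ := by
    refine integral_mono_ae ((bh.pow 4).int _) (((CBM.const _).add ((bh.pow 4).mul hv)).int _)
      (hv1.mono fun x hx => ?_)
    have a0 := hv0 x
    have a1 : 0 ≤ cTr N (chh (Y x)) ^ 4 := by positivity
    by_cases hc : T < chh (Y x)
    · have := mul_le_mul_of_nonneg_left (hx hc) a1
      have : 0 ≤ T ^ 4 := by positivity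
      simp only; linarith
    · have := pow_le_pow_left₀ (cTr_nonneg _ _) (cTr_le' N hT (not_lt.1 hc)) 4
      have := mul_nonneg a1 a0
      simp only; linarith
  rw [integral_add ((CBM.const _).int _) (((bh.pow 4).mul hv).int _)] at k3
  simp only [integral_const, probReal_univ, smul_eq_mul, one_mul] at k3
  have k4 := c_cs μ (bh.pow 4) hv
  simp only [← pow_mul] at k4
  have hH : 0 ≤ ∫ x, cTr N (chh (Y x)) ^ 8 ∂μ := integral_nonneg fun x => by positivity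
  have := c_tail_arith hB (by positivity) hH (integral_nonneg fun x => by positivity) hθ le_rfl
    (h1.trans (add_le_add_left k1 _)) (h2.trans (add_le_add_left k2 _)) k3
    (k4.trans (mul_le_mul_of_nonneg_left hp hH))
  rwa [← pow_mul] at this

theorem CGd.z_le {q : ℕ} {a : ℝ} {z m : ℂ} (h : CGd q a z m) {M : ℝ} (hM : z.im ≤ M) :
    ‖z‖ ≤ M + 2 * q := by
  have h2 := Complex.norm_le_abs_re_add_abs_im z
  rw [abs_of_nonneg h.zim] at h2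
  linarith [h.zre]

/-- the input of `c_tail` -/
theorem c_bad {m Y : ℂ} {u₀ T₀ : ℝ} (hu : 0 < u₀) (hY : 0 < Y.im)
    (h : ‖cU m Y‖ ≤ u₀ → hyp Y ≤ T₀) (hc : |T₀| < chh Y) : 1 ≤ u₀⁻¹ * ‖cV m Y‖ := by
  rw [cV_eq hY, ← div_eq_inv_mul, one_le_div hu]
  by_contra hh
  have := h (not_le.1 hh).le
  rw [c_hyp_eq] at this
  linarith [ckk_nonneg hY, le_abs_self T₀]

theorem c_bad_int {α : Type} [MeasurableSpace α] (μ : Measure α) (f : α → ℝ) {u₀ p₀ : ℝ}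
    (hu : 0 < u₀) (h : ∫ x, f x ^ 2 ∂μ ≤ p₀ * u₀ ^ 2) : ∫ x, (u₀⁻¹ * f x) ^ 2 ∂μ ≤ p₀ := by
  simp only [mul_pow]
  rw [integral_const_mul, inv_pow, ← div_eq_inv_mul, div_le_iff₀ (by positivity)]
  exact h

theorem stC4 : StC4 := by
  intro q κ M hq hκ
  obtain ⟨Λ, -, -, h0⟩ := stC0 q κ hq hκ
  obtain ⟨⟨u₀, T₀, hu, h1⟩, -⟩ := h0 M
  obtain ⟨p₀, C, hp, hC, ht⟩ := c_tail q hq (M + 2 * q + 1)
  refine ⟨p₀ * u₀ ^ 2, 4 + 4 * (C * |T₀| ^ 8), by positivity, ?_⟩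
  intro z s π _ ν _ hz hM hb hs hs1 hν hfix hX
  have h := c_gd hq hκ hz.le hb
  have h2 := h1 z hz.le hM hb
  simp only [c_uu] at hX h2
  generalize m0 q z = m at h hX h2
  have e2 : ∫ Y, ‖cU m Y‖ ^ 2 ∂ν = ∫ Y, ‖cV m Y‖ ^ 2 ∂ν :=
    integral_congr_ae (hν.mono fun Y hY => by simp only [cV_eq hY])
  rw [e2] at hX
  have key : ∀ N : ℕ, ∫⁻ Y, ENNReal.ofReal (4 + 2 * cTr N (chh Y) ^ 8 + 2 * cTr N (ckk Y) ^ 8) ∂ν ≤
      ENNReal.ofReal (4 + 4 * (C * |T₀| ^ 8)) := by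
    intro N
    have hN : (0 : ℝ) ≤ N := by positivity
    have bh : CBM fun x => cTr N (chh x) ^ 8 := ((cTr_bm hN).comp c_meas_hh).pow 8
    have bk : CBM fun x => cTr N (ckk x) ^ 8 := ((cTr_bm hN).comp c_meas_kk).pow 8
    obtain ⟨k1, k2⟩ := ht ℂ π ν (fun x => x) z s |T₀| N 0 (fun x => u₀⁻¹ * ‖cV m x‖) measurable_id hz hs
      (by linarith [h.z_le hM]) (abs_nonneg _) hN le_rfl hν (h.V_bm.norm.cmul _)
      (fun x => by positivity) (hν.mono fun Y hY => c_bad hu hY (h2 Y hY)) (c_bad_int ν _ hu hX)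
      (by rw [add_zero]; conv_lhs => rw [← hfix]
          exact (c_T1_int π s z ν bh.meas).le)
      (by rw [add_zero]; conv_lhs => rw [← hfix]
          exact (c_T1_int π s z ν bk.meas).le)
    rw [← ofReal_integral_eq_lintegral_ofReal
      ((((CBM.const _).add (bh.cmul _)).add (bk.cmul _)).int _)
      (Eventually.of_forall fun x => by positivity)]
    refine ENNReal.ofReal_le_ofReal ?_
    rw [integral_add (((CBM.const _).add (bh.cmul _)).int _) ((bk.cmul _).int _),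
      integral_add ((CBM.const _).int _) ((bh.cmul _).int _), integral_const_mul, integral_const_mul]
    simp only [integral_const, probReal_univ, smul_eq_mul, one_mul]
    rw [add_zero] at k1 k2
    linarith
  calc ∫⁻ Y, ENNReal.ofReal (hyp Y ^ 2) ∂ν
      ≤ ∫⁻ Y, liminf (fun N : ℕ =>
          ENNReal.ofReal (4 + 2 * cTr N (chh Y) ^ 8 + 2 * cTr N (ckk Y) ^ 8)) atTop ∂ν := by
        refine lintegral_mono_ae (hν.mono fun Y hY => ?_)
        refine le_liminf_of_le (by isBoundedDefault) ?_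
        filter_upwards [(tendsto_natCast_atTop_atTop (R := ℝ)).eventually_ge_atTop (chh Y),
          (tendsto_natCast_atTop_atTop (R := ℝ)).eventually_ge_atTop (ckk Y)] with N a1 a2
        refine ENNReal.ofReal_le_ofReal ?_
        rw [cTr_eq (chh_pos hY).le a1, cTr_eq (ckk_nonneg hY) a2, c_hyp_eq]
        have b : ∀ x : ℝ, x ^ 2 ≤ 1 + x ^ 8 := fun x => by
          nlinarith [sq_nonneg (x ^ 4 - 1 / 2), sq_nonneg (x ^ 2 - 1 / 2)]
        nlinarith [b (chh Y), b (ckk Y), sq_nonneg (chh Y - ckk Y)]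
    _ ≤ liminf (fun N : ℕ => ∫⁻ Y,
          ENNReal.ofReal (4 + 2 * cTr N (chh Y) ^ 8 + 2 * cTr N (ckk Y) ^ 8) ∂ν) atTop := by
        refine lintegral_liminf_le fun N => ENNReal.measurable_ofReal.comp ?_
        exact (measurable_const.add ((((c_meas_Tr _).comp c_meas_hh).pow_const 8).const_mul 2)).add
          ((((c_meas_Tr _).comp c_meas_kk).pow_const 8).const_mul 2)
    _ ≤ _ := liminf_le_of_frequently_le' (Eventually.of_forall key).frequently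

end Crest.Agent.R166
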